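import Vale.Agent.P264.Defs
import Vale.Agent.P264.Sol

/-! P264 block A: definitions (owner helper3). Variables `(t, ρ)`, `ρ = |z|²`. -/

noncomputable section

open Set Filter Topology
open scoped ContDiff ComplexConjugate ComplexOrder

namespace Vale.Agent.P264

/-- The half open quadrant. -/
def Dm : Set (ℝ × ℝ) := Ici 0 ×ˢ Ioi 0

/-- The closed quadrant. -/
def Dc : Set (ℝ × ℝ) := Ici 0 ×ˢ Ici 0

/-- Derivative in the second variable. -/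
def dr (f : ℝ × ℝ → ℝ) (p : ℝ × ℝ) : ℝ := deriv (fun ρ => f (p.1, ρ)) p.2

/-- Derivative in the first variable. -/
def dt (f : ℝ × ℝ → ℝ) (p : ℝ × ℝ) : ℝ := deriv (fun τ => f (τ, p.2)) p.1

/-- `f` extends continuously to the closed quadrant. -/
def Ext (f : ℝ × ℝ → ℝ) : Prop := ∃ g, ContinuousOn g Dc ∧ EqOn f g Dm

/-- `f` has a continuous positive extension. -/
def NZ (f : ℝ × ℝ → ℝ) : Prop := ∃ g, ContinuousOn g Dc ∧ EqOn f g Dm ∧ ∀ p ∈ Dc, 0 < g p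

/-- Smooth, and all `ρ`-derivatives extend continuously. -/
def Bd (f : ℝ × ℝ → ℝ) : Prop := ContDiffOn ℝ ∞ f Dm ∧ ∀ k, Ext (dr^[k] f)

/-- The squared Euclidean norm. -/
def nsq {n : ℕ} (z : Fin n → ℂ) : ℝ := ∑ k, ‖z k‖ ^ 2

/-- The point `(√ρ, 0, …, 0)`. -/
def pt (ρ : ℝ) : Fin 7 → ℂ := Pi.single 0 ((√ρ : ℝ) : ℂ)

/-- `log det` of the radial metric with potential `F (|z|²)`. -/
def ldR (F : ℝ → ℝ) (ρ : ℝ) : ℝ :=
  Real.log (deriv F ρ ^ 6 * (deriv F ρ + ρ * deriv (deriv F) ρ))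

/-- Its scalar curvature. -/
def scR (F : ℝ → ℝ) (ρ : ℝ) : ℝ :=
  -((deriv (ldR F) ρ + ρ * deriv (deriv (ldR F)) ρ) / (deriv F ρ + ρ * deriv (deriv F) ρ) +
    6 * deriv (ldR F) ρ / deriv F ρ)

/-- The invariant function given by a function of `X = |Z'|² / |Z|²`. -/
def psi (γ : ℝ → ℝ) (Z : Fin 8 → ℂ) : ℝ := γ (nsq (Fin.tail Z) / nsq Z)

/-- `x / X`. -/
def m1 (γ : ℝ → ℝ) (X : ℝ) : ℝ := 1 + (1 - X) * deriv γ X

/-- `dx / dX`. -/
def m3 (γ : ℝ → ℝ) (X : ℝ) : ℝ := 1 + (1 - 2 * X) * deriv γ X + X * (1 - X) * deriv (deriv γ) X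

theorem two_le_inf : (2 : WithTop ℕ∞) ≤ ∞ := WithTop.coe_le_coe.2 (le_top (a := (2 : ℕ∞)))

/-- A function of `(t, z)`, smooth up to `t = 0`, is smooth in `z`. -/
theorem par_slice {E : Type} [NormedAddCommGroup E] [NormedSpace ℝ E] {O : Set E} (hO : IsOpen O)
    {f : ℝ × E → ℝ} (hf : ContDiffOn ℝ ∞ f (Ici 0 ×ˢ O)) {t : ℝ} (ht : 0 ≤ t) {z : E}
    (hz : z ∈ O) : ContDiffAt ℝ ∞ (fun y => f (t, y)) z :=
  (hf.comp (f := fun y => (t, y)) (s := O) (by fun_prop) fun _ hy => ⟨ht, hy⟩).contDiffAt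
    (hO.mem_nhds hz)

/-- Its `z`-derivatives are again smooth up to `t = 0`. -/
theorem par_fderiv {E : Type} [NormedAddCommGroup E] [NormedSpace ℝ E] {O : Set E} (hO : IsOpen O)
    {f : ℝ × E → ℝ} (hf : ContDiffOn ℝ ∞ f (Ici 0 ×ˢ O)) (v : E) :
    ContDiffOn ℝ ∞ (fun p : ℝ × E => fderiv ℝ (fun y => f (p.1, y)) p.2 v) (Ici 0 ×ˢ O) := by
  have hu : UniqueDiffOn ℝ (Ici (0 : ℝ) ×ˢ O) := (uniqueDiffOn_Ici 0).prod hO.uniqueDiffOn
  refine ((hf.fderivWithin hu (m := ∞) (by simp)).clm_apply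
    (contDiffOn_const (c := ((0 : ℝ), v)))).congr fun p hp => ?_
  have h1 := (hf.differentiableOn (by simp) p hp).hasFDerivWithinAt
  have h2 : HasFDerivWithinAt (fun y => f (p.1, y)) _ O p.2 :=
    h1.comp p.2 (hasFDerivAt_prodMk_right p.1 p.2).hasFDerivWithinAt
      (show MapsTo (fun y => (p.1, y)) O (Ici 0 ×ˢ O) from fun _ hy => ⟨hp.1, hy⟩)
  rw [(h2.hasFDerivAt (hO.mem_nhds hp.2)).fderiv]
  simp

end Vale.Agent.P264
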