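import Vale.Agent.P264.A.Basic

/-! P264 A/Bd: calculus for `dr`, `dt` and the algebra of functions smooth up to `ρ = 0`. -/

noncomputable section

open Set Filter Topology
open scoped ContDiff

namespace Vale.Agent.P264

variable {f g : ℝ × ℝ → ℝ} {p : ℝ × ℝ}

theorem sm_dr (hf : ContDiffOn ℝ ∞ f Dm) : ContDiffOn ℝ ∞ (dr f) Dm := par_fderiv isOpen_Ioi hf 1

theorem sm_hd (hf : ContDiffOn ℝ ∞ f Dm) (hp : p ∈ Dm) :
    HasDerivAt (fun ρ => f (p.1, ρ)) (dr f p) p.2 :=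
  ((par_slice isOpen_Ioi hf hp.1 hp.2).differentiableAt (by simp)).hasDerivAt

theorem dr_congr (h : EqOn f g Dm) : EqOn (dr f) (dr g) Dm := fun p hp =>
  Filter.EventuallyEq.deriv_eq (by
    filter_upwards [Ioi_mem_nhds (show 0 < p.2 from hp.2)] with ρ hρ
    exact h ⟨hp.1, hρ⟩)

theorem Dm_sub : Dm ⊆ Dc := fun _ hp => ⟨hp.1, Ioi_subset_Ici_self hp.2⟩

theorem mem_Dm {t ρ : ℝ} (ht : 0 ≤ t) (hρ : 0 < ρ) : (t, ρ) ∈ Dm := ⟨ht, hρ⟩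

theorem Ext.congr (hf : Ext f) (h : EqOn g f Dm) : Ext g :=
  hf.imp fun _ he => ⟨he.1, h.trans he.2⟩

theorem NZ.ext (hf : NZ f) : Ext f := hf.imp fun _ h => ⟨h.1, h.2.1⟩

theorem NZ.pos (hf : NZ f) (hp : p ∈ Dm) : 0 < f p := by
  obtain ⟨g, -, h2, h3⟩ := hf
  rw [h2 hp]
  exact h3 p (Dm_sub hp)

theorem Bd.ext (hf : Bd f) : Ext f := hf.2 0

theorem Bd.dr (hf : Bd f) : Bd (dr f) := ⟨sm_dr hf.1, fun k => hf.2 (k + 1)⟩

/-- The algebra generated by the class `Bd`. -/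
inductive Gen : (ℝ × ℝ → ℝ) → Prop
  | base {f : ℝ × ℝ → ℝ} : Bd f → Gen f
  | const (c : ℝ) : Gen fun _ => c
  | snd : Gen fun p => p.2
  | add {f g : ℝ × ℝ → ℝ} : Gen f → Gen g → Gen fun p => f p + g p
  | mul {f g : ℝ × ℝ → ℝ} : Gen f → Gen g → Gen fun p => f p * g p
  | inv {f : ℝ × ℝ → ℝ} : Gen f → NZ f → Gen fun p => (f p)⁻¹

theorem Gen.step (h : Gen f) :
    ContDiffOn ℝ ∞ f Dm ∧ Ext f ∧ ∃ g, Gen g ∧ EqOn (dr f) g Dm := by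
  induction h with
  | base h => exact ⟨h.1, h.ext, _, Gen.base h.dr, fun _ _ => rfl⟩
  | const c => exact ⟨contDiffOn_const, ⟨_, continuousOn_const, fun _ _ => rfl⟩, _, Gen.const 0,
      fun _ _ => deriv_const _ _⟩
  | snd => exact ⟨contDiffOn_snd, ⟨_, continuousOn_snd, fun _ _ => rfl⟩, _, Gen.const 1,
      fun p _ => deriv_id p.2⟩
  | add _ _ h1 h2 =>
    obtain ⟨a1, ⟨u, a2, a3⟩, f', a4, a5⟩ := h1
    obtain ⟨b1, ⟨v, b2, b3⟩, g', b4, b5⟩ := h2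
    refine ⟨a1.add b1, ⟨_, a2.add b2, fun p hp => by simp only [Pi.add_apply, a3 hp, b3 hp]⟩, _,
      a4.add b4, fun p hp => ?_⟩
    rw [← a5 hp, ← b5 hp]
    exact ((sm_hd a1 hp).fun_add (sm_hd b1 hp)).deriv
  | mul f0 g0 h1 h2 =>
    obtain ⟨a1, ⟨u, a2, a3⟩, f', a4, a5⟩ := h1
    obtain ⟨b1, ⟨v, b2, b3⟩, g', b4, b5⟩ := h2
    refine ⟨a1.mul b1, ⟨_, a2.mul b2, fun p hp => by simp only [Pi.mul_apply, a3 hp, b3 hp]⟩, _,
      (a4.mul g0).add (f0.mul b4), fun p hp => ?_⟩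
    rw [← a5 hp, ← b5 hp]
    exact ((sm_hd a1 hp).fun_mul (sm_hd b1 hp)).deriv
  | inv f0 hz h1 =>
    obtain ⟨a1, -, f', a4, a5⟩ := h1
    refine ⟨a1.inv fun p hp => (hz.pos hp).ne', ?_, _,
      ((Gen.const (-1)).mul a4).mul ((f0.inv hz).mul (f0.inv hz)), fun p hp => ?_⟩
    · obtain ⟨u, a2, a3, a6⟩ := hz
      exact ⟨_, a2.inv₀ fun p hp => (a6 p hp).ne', fun p hp => by simp only [Pi.inv_apply, a3 hp]⟩
    · rw [← a5 hp]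
      refine ((sm_hd a1 hp).fun_inv (hz.pos hp).ne').deriv.trans ?_
      rw [div_eq_mul_inv, sq, mul_inv, neg_one_mul]

theorem Gen.bd (h : Gen f) : Bd f := by
  refine ⟨h.step.1, fun k => ?_⟩
  have key : ∀ k, ∃ g, Gen g ∧ EqOn (dr^[k] f) g Dm := fun k => by
    induction k with
    | zero => exact ⟨f, h, fun _ _ => rfl⟩
    | succ k ih =>
      obtain ⟨g, h1, h2⟩ := ih
      obtain ⟨g', h3, h4⟩ := h1.step.2.2
      exact ⟨g', h3, by rw [Function.iterate_succ_apply']; exact (dr_congr h2).trans h4⟩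
  obtain ⟨g, h1, h2⟩ := key k
  exact h1.step.2.1.congr h2

theorem bd_const (c : ℝ) : Bd fun _ => c := (Gen.const c).bd

theorem bd_snd : Bd fun p => p.2 := Gen.snd.bd

theorem Bd.add (hf : Bd f) (hg : Bd g) : Bd fun p => f p + g p := ((Gen.base hf).add (.base hg)).bd

theorem Bd.mul (hf : Bd f) (hg : Bd g) : Bd fun p => f p * g p := ((Gen.base hf).mul (.base hg)).bd

theorem Bd.inv (hf : Bd f) (h : NZ f) : Bd fun p => (f p)⁻¹ := ((Gen.base hf).inv h).bd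

theorem Bd.neg (hf : Bd f) : Bd fun p => -f p := by
  simpa only [neg_one_mul] using (bd_const (-1)).mul hf

theorem Bd.sub (hf : Bd f) (hg : Bd g) : Bd fun p => f p - g p := by
  simpa only [sub_eq_add_neg] using hf.add hg.neg

theorem ext_lim (hg : ContinuousOn g Dc) (h : EqOn f g Dm) {t : ℝ} (ht : 0 ≤ t) :
    Tendsto (fun ρ => f (t, ρ)) (𝓝[>] 0) (𝓝 (g (t, 0))) := by
  have h1 : ContinuousWithinAt (fun ρ : ℝ => g (t, ρ)) (Ioi 0) 0 :=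
    (hg (t, 0) ⟨ht, le_refl (0 : ℝ)⟩).comp (f := fun ρ : ℝ => (t, ρ)) (by fun_prop)
      fun ρ hρ => ⟨ht, Ioi_subset_Ici_self hρ⟩
  exact h1.tendsto.congr' (eventually_nhdsWithin_of_forall fun ρ hρ => (h (mem_Dm ht hρ)).symm)

theorem Ext.mul_lim (hf : Ext f) {t : ℝ} (ht : 0 ≤ t) :
    Tendsto (fun ρ => ρ * f (t, ρ)) (𝓝[>] 0) (𝓝 0) := by
  obtain ⟨g, h1, h2⟩ := hf
  simpa using (tendsto_id.mono_left nhdsWithin_le_nhds).mul (ext_lim h1 h2 ht)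

theorem NZ.lim (hf : NZ f) {t : ℝ} (ht : 0 ≤ t) :
    ∃ l, 0 < l ∧ Tendsto (fun ρ => f (t, ρ)) (𝓝[>] 0) (𝓝 l) := by
  obtain ⟨g, h1, h2, h3⟩ := hf
  exact ⟨_, h3 (t, 0) ⟨ht, le_refl (0 : ℝ)⟩, ext_lim h1 h2 ht⟩

theorem nz_of (hf : Ext f) (h : ∀ p ∈ Dm, 0 < f p)
    (h0 : ∀ t, 0 ≤ t → ∃ l, 0 < l ∧ Tendsto (fun ρ => f (t, ρ)) (𝓝[>] 0) (𝓝 l)) : NZ f := by
  obtain ⟨g, h1, h2⟩ := hf
  refine ⟨g, h1, h2, ?_⟩
  rintro ⟨t, ρ⟩ ⟨ht, hρ⟩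
  rcases (show 0 ≤ ρ from hρ).eq_or_lt with rfl | hρ
  · obtain ⟨l, l0, hl⟩ := h0 t ht
    rwa [tendsto_nhds_unique (ext_lim h1 h2 ht) hl]
  · rw [← h2 ⟨ht, hρ⟩]
    exact h _ ⟨ht, hρ⟩

theorem Ext.bound (hf : Ext f) (T : ℝ) :
    ∃ C, ∀ t ∈ Icc 0 T, ∀ ρ ∈ Ioc (0 : ℝ) 1, |f (t, ρ)| ≤ C := by
  obtain ⟨g, h1, h2⟩ := hf
  obtain ⟨C, hC⟩ := ((isCompact_Icc (a := (0 : ℝ)) (b := T)).prod
    (isCompact_Icc (a := (0 : ℝ)) (b := 1))).exists_bound_of_continuousOn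
      (h1.mono fun p hp => ⟨hp.1.1, hp.2.1⟩)
  exact ⟨C, fun t ht ρ hρ => by
    rw [h2 (mem_Dm ht.1 hρ.1)]
    exact hC (t, ρ) ⟨ht, hρ.1.le, hρ.2⟩⟩

theorem two_side (hf : Ext f) (hg : Ext g) (h : ∀ p ∈ Dm, g p = f (p.1, p.2⁻¹)) (T : ℝ) :
    ∃ C, 0 < C ∧ ∀ t ∈ Icc 0 T, ∀ ρ, 0 < ρ → |f (t, ρ)| ≤ C := by
  obtain ⟨A, hA⟩ := hf.bound T
  obtain ⟨B, hB⟩ := hg.bound T
  refine ⟨max 1 (max A B), lt_max_of_lt_left one_pos, fun t ht ρ hρ => le_max_of_le_right ?_⟩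
  rcases le_total ρ 1 with h1 | h1
  · exact le_max_of_le_left (hA t ht ρ ⟨hρ, h1⟩)
  · have h2 := hB t ht ρ⁻¹ ⟨inv_pos.2 hρ, inv_le_one_of_one_le₀ h1⟩
    rw [h (t, ρ⁻¹) ⟨ht.1, inv_pos.2 hρ⟩, inv_inv] at h2
    exact le_max_of_le_right h2

/-! ### Interior points -/

theorem hd_r (h : DifferentiableAt ℝ f p) :
    HasDerivAt (fun ρ => f (p.1, ρ)) (fderiv ℝ f p (0, 1)) p.2 :=
  h.hasFDerivAt.comp_hasDerivAt p.2 ((hasDerivAt_const p.2 p.1).prodMk (hasDerivAt_id' p.2))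

theorem hd_t (h : DifferentiableAt ℝ f p) :
    HasDerivAt (fun τ => f (τ, p.2)) (fderiv ℝ f p (1, 0)) p.1 :=
  h.hasFDerivAt.comp_hasDerivAt p.1 ((hasDerivAt_id' p.1).prodMk (hasDerivAt_const p.1 p.2))

theorem ev_diff (h : ContDiffAt ℝ ∞ f p) : ∀ᶠ q in 𝓝 p, DifferentiableAt ℝ f q :=
  ((h.of_le (m := 1) (by exact_mod_cast le_top)).eventually (by simp)).mono fun _ hq =>
    hq.differentiableAt one_ne_zero

theorem dr_ev (h : ContDiffAt ℝ ∞ f p) : dr f =ᶠ[𝓝 p] fun q => fderiv ℝ f q (0, 1) :=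
  (ev_diff h).mono fun _ hq => (hd_r hq).deriv

theorem dt_ev (h : ContDiffAt ℝ ∞ f p) : dt f =ᶠ[𝓝 p] fun q => fderiv ℝ f q (1, 0) :=
  (ev_diff h).mono fun _ hq => (hd_t hq).deriv

theorem cd_app (h : ContDiffAt ℝ ∞ f p) (v : ℝ × ℝ) : ContDiffAt ℝ ∞ (fun q => fderiv ℝ f q v) p :=
  (h.fderiv_right (m := ∞) (by simp)).clm_apply contDiffAt_const

theorem cd_dt (h : ContDiffAt ℝ ∞ f p) : ContDiffAt ℝ ∞ (dt f) p :=
  (cd_app h _).congr_of_eventuallyEq (dt_ev h)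

theorem hd_dt (h : ContDiffAt ℝ ∞ f p) : HasDerivAt (fun τ => f (τ, p.2)) (dt f p) p.1 :=
  (hd_t (h.differentiableAt (by simp))).differentiableAt.hasDerivAt

theorem hd_dr (h : ContDiffAt ℝ ∞ f p) : HasDerivAt (fun ρ => f (p.1, ρ)) (dr f p) p.2 :=
  (hd_r (h.differentiableAt (by simp))).differentiableAt.hasDerivAt

theorem dr_ev_congr (h : f =ᶠ[𝓝 p] g) : dr f p = dr g p :=
  Filter.EventuallyEq.deriv_eq ((show ContinuousAt (fun ρ => (p.1, ρ)) p.2 by fun_prop).eventually h)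

theorem dt_ev_congr (h : f =ᶠ[𝓝 p] g) : dt f p = dt g p :=
  Filter.EventuallyEq.deriv_eq ((show ContinuousAt (fun τ => (τ, p.2)) p.1 by fun_prop).eventually h)

theorem dt_dr (h : ContDiffAt ℝ ∞ f p) : dt (dr f) p = dr (dt f) p := by
  have hd := (h.fderiv_right (m := ∞) (by simp)).differentiableAt (by simp)
  rw [dt_ev_congr (dr_ev h), dr_ev_congr (dt_ev h), (dt_ev (cd_app h _)).eq_of_nhds,
    (dr_ev (cd_app h _)).eq_of_nhds, fderiv_clm_apply hd (differentiableAt_const _),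
    fderiv_clm_apply hd (differentiableAt_const _)]
  simpa using (h.isSymmSndFDerivAt (by simpa using two_le_inf)).eq (1, 0) (0, 1)

theorem sm_at (hf : ContDiffOn ℝ ∞ f Dm) (h1 : 0 < p.1) (h2 : 0 < p.2) : ContDiffAt ℝ ∞ f p :=
  hf.contDiffAt (prod_mem_nhds (Ici_mem_nhds h1) (Ioi_mem_nhds h2))

end Vale.Agent.P264
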