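import Vale.Agent.P264.A.Basic

/-! P264 A/Hess (TASK): the complex Hessian of radial functions.
`hess_rad`: `nsq` has derivative `w ↦ 2 ∑ k, (conj (y k) * w k).re` (`‖a‖ ^ 2 = a.re ^ 2 + a.im ^ 2`); near `z`,
`fderiv u y w = deriv F (nsq y) * 2 ⟨y, w⟩` (`ContDiffAt.eventually`, `EventuallyEq.fderiv`), differentiate once more:
`d2 u z v w = 4 F'' ⟨z, v⟩ ⟨z, w⟩ + 2 F' ⟨v, w⟩`; then `Complex.ext`. `hess_det`: the matrix is
`F' • (1 + replicateCol (F''/F' * conj z) * replicateRow z)`, `Matrix.det_smul`,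
`Matrix.det_one_add_replicateCol_mul_replicateRow`. `hess_scal`: at `pt ρ` the matrix is `Matrix.diagonal`
(`Matrix.inv_eq_left_inv`), the function `log det` equals `ldR F (nsq y)` for `y ≠ 0`, apply `hess_rad` to it. -/

noncomputable section

open Set Filter Topology
open scoped ContDiff ComplexConjugate ComplexOrder

namespace Vale.Agent.P264

theorem nsq_pt {ρ : ℝ} (h : 0 ≤ ρ) : nsq (pt ρ) = ρ := by
  simp [nsq, pt, Fin.sum_univ_succ, h]

theorem nsq_pos {n : ℕ} {z : Fin n → ℂ} (hz : z ≠ 0) : 0 < nsq z := by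
  obtain ⟨k, hk⟩ := Function.ne_iff.1 hz
  exact Finset.sum_pos' (fun _ _ => sq_nonneg _) ⟨k, Finset.mem_univ _, pow_pos (norm_pos_iff.2 hk) 2⟩

theorem nsq_nonneg {n : ℕ} (z : Fin n → ℂ) : 0 ≤ nsq z := Finset.sum_nonneg fun _ _ => sq_nonneg _

theorem contDiff_nsq {n : ℕ} : ContDiff ℝ ∞ (nsq : (Fin n → ℂ) → ℝ) :=
  ContDiff.sum fun k _ => (contDiff_apply ℝ ℂ k).norm_sq ℝ

/-- The real inner product as a linear form. -/
def hessL {n : ℕ} (w : Fin n → ℂ) : (Fin n → ℂ) →L[ℝ] ℝ :=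
  ∑ k, (innerSL ℝ (w k)).comp (ContinuousLinearMap.proj k)

theorem hessL_apply {n : ℕ} (w y : Fin n → ℂ) :
    hessL w y = ∑ k, ((w k).re * (y k).re + (w k).im * (y k).im) := by
  simp only [hessL, _root_.sum_apply, ContinuousLinearMap.comp_apply,
    ContinuousLinearMap.proj_apply, innerSL_apply_apply, Complex.inner]
  exact Finset.sum_congr rfl fun k _ => by simp [mul_comm]

theorem hessL_comm {n : ℕ} (w y : Fin n → ℂ) : hessL w y = hessL y w := by
  simp only [hessL_apply, mul_comm]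

theorem hessL_single {n : ℕ} (a : Fin n) (c : ℂ) (y : Fin n → ℂ) :
    hessL (Pi.single a c) y = c.re * (y a).re + c.im * (y a).im := by
  rw [hessL_apply, Finset.sum_eq_single a (fun b _ hb => by simp [hb]) (by simp), Pi.single_eq_same]

theorem hess_d1 {n : ℕ} (y : Fin n → ℂ) : HasFDerivAt nsq ((2 : ℕ) • hessL y) y := by
  rw [hessL, Finset.smul_sum]
  exact HasFDerivAt.fun_sum fun k _ => (hasFDerivAt_apply (𝕜 := ℝ) k y).norm_sq

theorem hess_d2 {n : ℕ} {u : (Fin n → ℂ) → ℝ} {F : ℝ → ℝ} {z : Fin n → ℂ}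
    (hF : ContDiffAt ℝ 2 F (nsq z)) (hu : u =ᶠ[𝓝 z] fun y => F (nsq y)) (v w : Fin n → ℂ) :
    d2 u z v w = 4 * deriv (deriv F) (nsq z) * (hessL v z * hessL w z) +
      2 * deriv F (nsq z) * hessL w v := by
  have h1 : (fun y => fderiv ℝ u y w) =ᶠ[𝓝 z] fun y => deriv F (nsq y) * (2 * hessL w y) := by
    filter_upwards [hu.fderiv (𝕜 := ℝ),
      (hess_d1 z).continuousAt.eventually (hF.eventually (by simp))] with y e hy
    have h2 := (hy.differentiableAt (by simp)).hasDerivAt.comp_hasFDerivAt y (hess_d1 y)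
    rw [e, show (fun y => F (nsq y)) = F ∘ nsq from rfl, h2.fderiv, hessL_comm]
    simp
  have h3 : DifferentiableAt ℝ (deriv F) (nsq z) :=
    ((hF.fderiv_right (m := 1) (by norm_num)).clm_apply
      (contDiffAt_const (c := (1 : ℝ)))).differentiableAt one_ne_zero
  have h4 := (h3.hasDerivAt.comp_hasFDerivAt z (hess_d1 z)).mul
    ((hessL w).hasFDerivAt.const_mul (2 : ℝ))
  have h5 : fderiv ℝ (fun y => deriv F (nsq y) * (2 * hessL w y)) z = _ := h4.fderiv
  rw [d2, h1.fderiv_eq, h5, hessL_comm v z]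
  simp
  ring

theorem hess_rad {n : ℕ} {u : (Fin n → ℂ) → ℝ} {F : ℝ → ℝ} {z : Fin n → ℂ}
    (hF : ContDiffAt ℝ 2 F (nsq z)) (hu : u =ᶠ[𝓝 z] fun y => F (nsq y)) (a b : Fin n) :
    cHess u z a b = (if a = b then ((deriv F (nsq z) : ℝ) : ℂ) else 0) +
      (deriv (deriv F) (nsq z) : ℝ) * (conj (z a) * z b) := by
  simp only [cHess, hess_d2 hF hu, hessL_single]
  by_cases h : a = b
  · subst h
    apply Complex.ext <;> simp <;> ring
  · apply Complex.ext <;> simp [h, Ne.symm h] <;> ring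

theorem hess_det {u : (Fin 7 → ℂ) → ℝ} {F : ℝ → ℝ} {z : Fin 7 → ℂ}
    (hF : ContDiffAt ℝ 2 F (nsq z)) (hu : u =ᶠ[𝓝 z] fun y => F (nsq y))
    (h1 : deriv F (nsq z) ≠ 0) : (cHess u z).det.re =
      deriv F (nsq z) ^ 6 * (deriv F (nsq z) + nsq z * deriv (deriv F) (nsq z)) := by
  have h0 : ((deriv F (nsq z) : ℝ) : ℂ) ≠ 0 := Complex.ofReal_ne_zero.2 h1
  have e : cHess u z = ((deriv F (nsq z) : ℝ) : ℂ) • (1 + Matrix.replicateCol Unit
      (fun a => (deriv (deriv F) (nsq z) : ℝ) / ((deriv F (nsq z) : ℝ) : ℂ) * conj (z a)) *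
        Matrix.replicateRow Unit z) := by
    ext a b
    rw [hess_rad hF hu]
    simp only [Matrix.smul_apply, Matrix.add_apply, Matrix.one_apply, Matrix.mul_apply,
      Matrix.replicateCol_apply, Matrix.replicateRow_apply, smul_eq_mul, Finset.univ_unique,
      Finset.sum_singleton]
    split_ifs <;> field_simp <;> ring
  have e2 : z ⬝ᵥ (fun a => (deriv (deriv F) (nsq z) : ℝ) / ((deriv F (nsq z) : ℝ) : ℂ) * conj (z a)) =
      (deriv (deriv F) (nsq z) : ℝ) / ((deriv F (nsq z) : ℝ) : ℂ) * (nsq z : ℝ) := by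
    simp only [dotProduct, mul_left_comm (z _), ← Finset.mul_sum, Complex.mul_conj,
      Complex.normSq_eq_norm_sq]
    rw [nsq, Complex.ofReal_sum]
  rw [e, Matrix.det_smul, Matrix.det_one_add_replicateCol_mul_replicateRow, e2, Fintype.card_fin]
  norm_cast
  field_simp

theorem hess_scal {u : (Fin 7 → ℂ) → ℝ} {F : ℝ → ℝ} (hF : ContDiffOn ℝ ∞ F (Ioi 0))
    (hu : ∀ z, z ≠ 0 → u z = F (nsq z)) (h1 : ∀ ρ, 0 < ρ → 0 < deriv F ρ)
    (h2 : ∀ ρ, 0 < ρ → 0 < deriv F ρ + ρ * deriv (deriv F) ρ) {ρ : ℝ} (hρ : 0 < ρ) :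
    scal u (pt ρ) = scR F ρ := by
  have hA : ∀ r, 0 < r → ContDiffAt ℝ 2 F r := fun r hr =>
    (hF.contDiffAt (Ioi_mem_nhds hr)).of_le two_le_inf
  have hz : pt ρ ≠ 0 := fun e => by
    have := nsq_pt hρ.le
    rw [e] at this
    simp only [nsq, Pi.zero_apply, norm_zero] at this
    simp at this
    exact hρ.ne this
  have hev : ∀ z : Fin 7 → ℂ, z ≠ 0 → u =ᶠ[𝓝 z] fun y => F (nsq y) := fun z hz => by
    filter_upwards [isOpen_ne.mem_nhds hz] with y hy using hu y hy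
  have d1 := hF.deriv_of_isOpen (m := ∞) isOpen_Ioi (by simp)
  have d2 := d1.deriv_of_isOpen (m := ∞) isOpen_Ioi (by simp)
  have hG : ContDiffAt ℝ 2 (ldR F) (nsq (pt ρ)) := by
    rw [nsq_pt hρ.le]
    have a1 := (d1.contDiffAt (Ioi_mem_nhds hρ)).of_le two_le_inf
    have a2 := (d2.contDiffAt (Ioi_mem_nhds hρ)).of_le two_le_inf
    exact ((a1.pow 6).mul (a1.add (contDiffAt_id.mul a2))).log
      (mul_pos (pow_pos (h1 ρ hρ) 6) (h2 ρ hρ)).ne'
  have hl : (fun y => Real.log (cHess u y).det.re) =ᶠ[𝓝 (pt ρ)] fun y => ldR F (nsq y) := by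
    filter_upwards [isOpen_ne.mem_nhds hz] with y hy
    rw [hess_det (hA _ (nsq_pos hy)) (hev y hy) (h1 _ (nsq_pos hy)).ne', ldR]
  have hs : ((√ρ : ℝ) : ℂ) * ((√ρ : ℝ) : ℂ) = ρ := by
    rw [← Complex.ofReal_mul, Real.mul_self_sqrt hρ.le]
  have hc : ∀ a b : Fin 7, conj (pt ρ a) * pt ρ b = if a = b ∧ a = 0 then (ρ : ℂ) else 0 := by
    intro a b
    by_cases ha : a = 0
    · subst ha
      by_cases hb : 0 = b
      · subst hb
        simp [pt, hs]
      · simp [pt, hb, Ne.symm hb]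
    · simp [pt, ha]
  have e : cHess u (pt ρ) = Matrix.diagonal fun a =>
      ((if a = 0 then deriv F ρ + ρ * deriv (deriv F) ρ else deriv F ρ : ℝ) : ℂ) := by
    ext a b
    rw [hess_rad (hA _ (nsq_pos hz)) (hev _ hz), hc, nsq_pt hρ.le, Matrix.diagonal_apply]
    by_cases hab : a = b
    · subst hab
      by_cases ha : a = 0 <;> simp [ha, mul_comm]
    · simp [hab]
  have e' : (cHess u (pt ρ))⁻¹ = Matrix.diagonal fun a =>
      (((if a = 0 then deriv F ρ + ρ * deriv (deriv F) ρ else deriv F ρ)⁻¹ : ℝ) : ℂ) := by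
    refine Matrix.inv_eq_left_inv ?_
    rw [e, Matrix.diagonal_mul_diagonal, ← Matrix.diagonal_one]
    congr 1
    funext a
    rw [← Complex.ofReal_mul, inv_mul_cancel₀, Complex.ofReal_one]
    split_ifs
    exacts [(h2 ρ hρ).ne', (h1 ρ hρ).ne']
  rw [scal, e', scR, Matrix.trace]
  simp only [Matrix.diag_apply, Matrix.diagonal_mul, hess_rad hG hl, hc, nsq_pt hρ.le, if_true,
    true_and]
  rw [Fin.sum_univ_succ]
  simp only [if_true, Fin.succ_ne_zero, if_false, mul_zero, add_zero, Finset.sum_const,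
    Finset.card_univ, Fintype.card_fin, nsmul_eq_mul]
  norm_cast
  simp only [div_eq_mul_inv]
  ring

end Vale.Agent.P264
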