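import Vale.Agent.P264.A.Basic

/-! P264 A/Init (TASK): the initial potential as a function of `X`.
`b x = 1 - x (1 - x) c x > 0` on a neighbourhood `(-2ε, 1 + 2ε)` of `[0,1]`. Let `h = χ c / b` with a bump `χ` (`ContDiffBump (1/2)`,
radii `1/2 + ε`, `1/2 + 3ε/2`), smooth on `ℝ`; `H = ∫₀ˣ h`, `K = ∫₀ˣ H` (smooth: `contDiff_infty_iff_deriv`), `E = exp H`, `D = 1 - x + x E`
(positive on `[0,1]`, hence on an open interval `J ⊇ [0,1]`, `J ⊆ (-ε, 1 + ε)`), `Ξ = x E / D`, `Ξ' = E / (b D²) > 0` on `J`, `Ξ 0 = 0`, `Ξ 1 = 1`,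
`g = x H - K - log D`, `g' = (1 - E) / (b D)`. `ξ = Function.invFunOn Ξ J` is a left inverse on `J` (strict monotonicity), every `X ∈ [0,1]` is `Ξ x` (IVT), and
`ξ` agrees near `X` with `ContDiffAt.localInverse` (`HasStrictFDerivAt.localInverse_unique` / `ContDiffAt.to_localInverse`), so it is smooth there, with
`Ξ (ξ Y) = Y` near `X` and `ξ' = 1 / Ξ'`. `γ = g ∘ ξ`: `γ' = (D (1 - E) / E) ∘ ξ` near `X`, so `Y + Y (1 - Y) γ' Y = ξ Y` near `X`;
differentiating gives `m3 γ X = ξ' X = b D² / E`; `m1 γ X = D / E`; `X (1 - X) = x (1 - x) E / D²`. -/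

noncomputable section

open Set Filter Topology
open scoped ContDiff ComplexConjugate ComplexOrder

namespace Vale.Agent.P264

theorem init_Ioo {U : Set ℝ} (hU : IsOpen U) (h : Icc (0 : ℝ) 1 ⊆ U) :
    ∃ a b : ℝ, a < 0 ∧ 1 < b ∧ Ioo a b ⊆ U := by
  obtain ⟨a, ha, ha'⟩ := exists_Ioc_subset_of_mem_nhds (hU.mem_nhds (h ⟨le_rfl, zero_le_one⟩))
    ⟨-1, by norm_num⟩
  obtain ⟨b, hb, hb'⟩ := exists_Ico_subset_of_mem_nhds (hU.mem_nhds (h ⟨zero_le_one, le_rfl⟩))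
    ⟨2, by norm_num⟩
  refine ⟨a, b, ha, hb, fun x hx => ?_⟩
  rcases le_total x 0 with h0 | h0
  · exact ha' ⟨hx.1, h0⟩
  rcases le_total x 1 with h1 | h1
  · exact h ⟨h0, h1⟩
  · exact hb' ⟨h1, hx.2⟩

theorem init_prim {a b : ℝ} (ha : a < 0) (hb : 0 < b) {h : ℝ → ℝ}
    (hh : ContDiffOn ℝ ∞ h (Ioo a b)) :
    ∃ H : ℝ → ℝ, ContDiffOn ℝ ∞ H (Ioo a b) ∧ ∀ x ∈ Ioo a b, HasDerivAt H (h x) x := by
  have hd : ∀ x ∈ Ioo a b, HasDerivAt (fun y => ∫ t in (0 : ℝ)..y, h t) (h x) x := fun x hx =>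
    intervalIntegral.integral_hasDerivAt_right
      ((hh.continuousOn.mono (OrdConnected.uIcc_subset ordConnected_Ioo ⟨ha, hb⟩
        hx)).intervalIntegrable)
      (hh.continuousOn.stronglyMeasurableAtFilter isOpen_Ioo x hx)
      (hh.continuousOn.continuousAt (isOpen_Ioo.mem_nhds hx))
  refine ⟨_, (contDiffOn_infty_iff_deriv_of_isOpen isOpen_Ioo).2 ⟨fun x hx =>
    (hd x hx).differentiableAt.differentiableWithinAt, hh.congr fun x hx => (hd x hx).deriv⟩, hd⟩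

/-- Smooth inverse of an increasing function. -/
theorem init_inv {J : Set ℝ} (hJ : IsOpen J) (hc : Convex ℝ J) {f f' : ℝ → ℝ}
    (hf : ContDiffOn ℝ ∞ f J) (hd : ∀ x ∈ J, HasDerivAt f (f' x) x) (hp : ∀ x ∈ J, 0 < f' x) :
    ∃ ξ : ℝ → ℝ, ∀ x ∈ J, ξ (f x) = x ∧ ContDiffAt ℝ ∞ ξ (f x) ∧
      ∀ᶠ Y in 𝓝 (f x), ξ Y ∈ J ∧ f (ξ Y) = Y ∧ HasDerivAt ξ (f' (ξ Y))⁻¹ Y := by
  have hm : StrictMonoOn f J := strictMonoOn_of_deriv_pos hc hf.continuousOn fun x hx => by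
    rw [(hd x (interior_subset hx)).deriv]
    exact hp x (interior_subset hx)
  have hl := hm.injOn.leftInvOn_invFunOn
  refine ⟨Function.invFunOn f J, fun x hx => ?_⟩
  have h1 : ContDiffAt ℝ ∞ f x := hf.contDiffAt (hJ.mem_nhds hx)
  have h2 := (hd x hx).hasFDerivAt_equiv (hp x hx).ne'
  have h3 := h1.to_localInverse h2 (by simp)
  have hs := h1.hasStrictFDerivAt' h2 (by simp)
  have h4 : ∀ᶠ Y in 𝓝 (f x), Function.invFunOn f J Y = h1.localInverse h2 (by simp) Y :=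
    hs.localInverse_unique (by filter_upwards [hJ.mem_nhds hx] with y hy using hl hy)
  have h5 : ContDiffAt ℝ ∞ (Function.invFunOn f J) (f x) := h3.congr_of_eventuallyEq h4
  have h6 : ∀ᶠ Y in 𝓝 (f x), f (Function.invFunOn f J Y) = Y := by
    filter_upwards [h4, hs.eventually_right_inverse] with Y a1 a2
    rw [a1]
    exact a2
  have h7 : ∀ᶠ Y in 𝓝 (f x), Function.invFunOn f J Y ∈ J :=
    h5.continuousAt.eventually_mem (by rw [hl hx]; exact hJ.mem_nhds hx)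
  refine ⟨hl hx, h5, ?_⟩
  filter_upwards [h6, h7, h6.eventually_nhds,
    (h5.of_le (m := 1) (by simp)).eventually (by simp)] with Y a1 a2 a3 a4
  exact ⟨a2, a1, HasDerivAt.of_local_left_inverse a4.continuousAt (hd _ a2) (hp _ a2).ne' a3⟩

theorem init_gamma (c : Polynomial ℝ) (hc : InitOK c) : ∃ γ : ℝ → ℝ, ∀ X ∈ Icc (0 : ℝ) 1,
    ContDiffAt ℝ ∞ γ X ∧ 0 < m1 γ X ∧ 0 < m3 γ X ∧ X * (1 - X) * m3 γ X =
      X * m1 γ X * (1 - X * m1 γ X) *
        (1 - X * m1 γ X * (1 - X * m1 γ X) * c.eval (X * m1 γ X)) := by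
  obtain ⟨C, hC⟩ : ∃ C : ℝ → ℝ, C = fun x => c.eval x := ⟨_, rfl⟩
  have hCs : ContDiff ℝ ∞ C := by
    rw [hC]
    simpa [Polynomial.coe_aeval_eq_eval] using Polynomial.contDiff_aeval (𝕜 := ℝ) c ∞
  obtain ⟨B, hB⟩ : ∃ B : ℝ → ℝ, B = fun x => 1 - x * (1 - x) * C x := ⟨_, rfl⟩
  have hBs : ContDiff ℝ ∞ B := by rw [hB]; fun_prop
  obtain ⟨a0, b0, ha0, hb0, hJ0⟩ := init_Ioo (isOpen_lt continuous_const hBs.continuous)
    (fun x hx => show 0 < B x by rw [hB, hC]; exact hc x hx)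
  obtain ⟨H, hH, dH⟩ := init_prim ha0 (by linarith) (h := fun x => C x / B x)
    (hCs.contDiffOn.div hBs.contDiffOn fun x hx => (show 0 < B x from hJ0 hx).ne')
  obtain ⟨E, hE⟩ : ∃ E : ℝ → ℝ, E = fun x => Real.exp (H x) := ⟨_, rfl⟩
  have hEs : ContDiffOn ℝ ∞ E (Ioo a0 b0) := by rw [hE]; exact hH.exp
  have hEp : ∀ x, 0 < E x := fun x => by rw [hE]; exact Real.exp_pos _
  have dE : ∀ x ∈ Ioo a0 b0, HasDerivAt E (E x * (C x / B x)) x := fun x hx => by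
    rw [hE]; exact (dH x hx).exp
  obtain ⟨D, hD⟩ : ∃ D : ℝ → ℝ, D = fun x => 1 - x + x * E x := ⟨_, rfl⟩
  have hDs : ContDiffOn ℝ ∞ D (Ioo a0 b0) := by
    rw [hD]; exact (contDiffOn_const.sub contDiffOn_id).add (contDiffOn_id.mul hEs)
  obtain ⟨a, b, ha, hb, hJ⟩ := init_Ioo
    (hDs.continuousOn.isOpen_inter_preimage isOpen_Ioo (isOpen_Ioi (a := (0 : ℝ))))
    (fun x hx => ⟨⟨by linarith [hx.1], by linarith [hx.2]⟩, by
      have := hEp x
      rw [hD]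
      rcases eq_or_lt_of_le hx.1 with h | h
      · simp [← h]
      · have := mul_pos h this
        simp only [mem_preimage, mem_Ioi]
        linarith [hx.2]⟩)
  have s0 : Ioo a b ⊆ Ioo a0 b0 := fun x hx => (hJ hx).1
  have hDp : ∀ x ∈ Ioo a b, 0 < D x := fun x hx => (hJ hx).2
  have hBp : ∀ x ∈ Ioo a b, 0 < B x := fun x hx => hJ0 (s0 hx)
  have dD : ∀ x ∈ Ioo a b, HasDerivAt D (-1 + (E x + x * (E x * (C x / B x)))) x := fun x hx => by
    rw [hD]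
    have := ((hasDerivAt_id' x).const_sub 1).fun_add ((hasDerivAt_id' x).fun_mul (dE x (s0 hx)))
    rwa [one_mul] at this
  have dX : ∀ x ∈ Ioo a b, HasDerivAt (fun x => x * E x / D x) (E x / (B x * D x ^ 2)) x :=
    fun x hx => by
    have := (((hasDerivAt_id' x).fun_mul (dE x (s0 hx))).fun_div (dD x hx) (hDp x hx).ne')
    refine this.congr_deriv (Eq.symm ?_)
    have e1 := (hDp x hx).ne'
    have e2 := (hBp x hx).ne'
    have e3 : D x = 1 - x + x * E x := by rw [hD]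
    have e4 : B x = 1 - x * (1 - x) * C x := by rw [hB]
    field_simp
    rw [e3, e4]
    ring
  obtain ⟨ξ, hξ⟩ := init_inv isOpen_Ioo (convex_Ioo a b) (f := fun x => x * E x / D x)
    ((contDiffOn_id.mul (hEs.mono s0)).div (hDs.mono s0) fun x hx => (hDp x hx).ne') dX
    fun x hx => div_pos (hEp x) (mul_pos (hBp x hx) (pow_pos (hDp x hx) 2))
  obtain ⟨g, hg, dg⟩ := init_prim ha (by linarith) (h := fun x => (1 - E x) / (B x * D x))
    ((contDiffOn_const.sub (hEs.mono s0)).div (hBs.contDiffOn.mul (hDs.mono s0))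
      fun x hx => (mul_pos (hBp x hx) (hDp x hx)).ne')
  have sI : Icc (0 : ℝ) 1 ⊆ Ioo a b := fun x hx => ⟨by linarith [hx.1], by linarith [hx.2]⟩
  refine ⟨fun Y => g (ξ Y), fun X hX => ?_⟩
  obtain ⟨x, hx, rfl⟩ : X ∈ (fun x => x * E x / D x) '' Icc (0 : ℝ) 1 := by
    refine intermediate_value_Icc zero_le_one
      (fun x hx => (dX x (sI hx)).continuousAt.continuousWithinAt) ?_
    have : D 1 = E 1 := by rw [hD]; simp
    simpa [this, (hEp 1).ne'] using hX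
  obtain ⟨k1, k2, k3⟩ := hξ x (sI hx)
  obtain ⟨X, hXe⟩ : ∃ X, X = x * E x / D x := ⟨_, rfl⟩
  simp only [← hXe] at k1 k2 k3 ⊢
  have hγ : ContDiffAt ℝ ∞ (fun Y => g (ξ Y)) X :=
    ContDiffAt.comp (g := g) X (by rw [k1]; exact hg.contDiffAt (isOpen_Ioo.mem_nhds (sI hx))) k2
  have d1 : ∀ᶠ Y in 𝓝 X, deriv (fun Y => g (ξ Y)) Y = D (ξ Y) * (1 - E (ξ Y)) / E (ξ Y) := by
    filter_upwards [k3] with Y hY
    have := ((dg _ hY.1).comp Y hY.2.2).deriv
    refine this.trans ?_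
    have e1 := (hDp _ hY.1).ne'
    have e2 := (hBp _ hY.1).ne'
    have e3 := (hEp (ξ Y)).ne'
    field_simp
  have d2 : (fun Y => Y + Y * (1 - Y) * deriv (fun Y => g (ξ Y)) Y) =ᶠ[𝓝 X] ξ := by
    filter_upwards [k3, d1] with Y hY h1
    have e1 := (hDp _ hY.1).ne'
    have e3 := (hEp (ξ Y)).ne'
    have e4 : D (ξ Y) = 1 - ξ Y + ξ Y * E (ξ Y) := by rw [hD]
    have e5 := hY.2.1
    rw [h1]
    generalize ξ Y = y at e1 e3 e4 e5 ⊢
    rw [← e5]
    field_simp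
    rw [e4]
    ring
  have d3 : DifferentiableAt ℝ (deriv fun Y => g (ξ Y)) X :=
    (hγ.derivWithin (m := 1) two_le_inf).differentiableAt (by simp)
  have d4 := (hasDerivAt_id X).add
    (((hasDerivAt_id X).mul ((hasDerivAt_id X).const_sub 1)).mul d3.hasDerivAt)
  have d5 := (d4.congr_of_eventuallyEq d2.symm).unique k3.self_of_nhds.2.2
  have e1 := hDp x (sI hx)
  have e2 := hBp x (sI hx)
  have e3 := hEp x
  have e4 : D x = 1 - x + x * E x := by rw [hD]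
  have e5 : B x = 1 - x * (1 - x) * c.eval x := by rw [hB, hC]
  have f3 : m3 (fun Y => g (ξ Y)) X = B x * D x ^ 2 / E x := by
    rw [k1, inv_div] at d5
    rw [← d5, m3]
    simp only [Pi.mul_apply, id]
    ring
  have f1 : m1 (fun Y => g (ξ Y)) X = D x / E x := by
    rw [m1, d1.self_of_nhds, k1, hXe]
    field_simp
    rw [e4]
    ring
  have f2 : X * m1 (fun Y => g (ξ Y)) X = x := by
    rw [f1, hXe]
    field_simp
  refine ⟨hγ, by rw [f1]; positivity, by rw [f3]; positivity, ?_⟩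
  rw [f2, f3, ← e5, hXe]
  field_simp
  rw [e4]
  ring

end Vale.Agent.P264
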