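import Vale.Agent.P264.A.Bd

/-! P264 A/Inv: inverting the moment coordinate. -/

noncomputable section

open Set Filter Topology
open scoped ContDiff

namespace Vale.Agent.P264

theorem inv_R {X : ℝ × ℝ → ℝ} (hX : ContDiffOn ℝ ∞ X Dm) (hp : ∀ p ∈ Dm, 0 < dr X p)
    (h0 : ∀ t, 0 ≤ t → Tendsto (fun ρ => X (t, ρ)) (𝓝[>] 0) (𝓝 0))
    (h1 : ∀ t, 0 ≤ t → Tendsto (fun ρ => X (t, ρ)) atTop (𝓝 1)) :
    ∃ R : ℝ × ℝ → ℝ, (∀ t x, 0 ≤ t → x ∈ Ioo (0 : ℝ) 1 → 0 < R (t, x) ∧ X (t, R (t, x)) = x ∧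
        HasDerivAt (fun y => R (t, y)) (dr X (t, R (t, x)))⁻¹ x) ∧
      ContinuousOn R (Ici 0 ×ˢ Ioo 0 1) ∧
      ∀ t x, 0 < t → x ∈ Ioo (0 : ℝ) 1 → ContDiffAt ℝ ∞ R (t, x) := by
  have hd : ∀ t ρ, 0 ≤ t → 0 < ρ → HasDerivAt (fun ρ => X (t, ρ)) (dr X (t, ρ)) ρ :=
    fun t ρ ht hρ => sm_hd hX (mem_Dm ht hρ)
  have mono : ∀ t, 0 ≤ t → StrictMonoOn (fun ρ => X (t, ρ)) (Ioi 0) := fun t ht =>
    strictMonoOn_of_deriv_pos (convex_Ioi 0)
      (fun ρ hρ => (hd t ρ ht hρ).continuousAt.continuousWithinAt)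
      fun ρ hρ => hp _ (mem_Dm ht (interior_subset hρ))
  have ex : ∀ p : ℝ × ℝ, ∃ ρ, p ∈ Ici 0 ×ˢ Ioo 0 1 → 0 < ρ ∧ X (p.1, ρ) = p.2 := by
    rintro ⟨t, x⟩
    by_cases h : (t, x) ∈ Ici (0 : ℝ) ×ˢ Ioo (0 : ℝ) 1
    · obtain ⟨a, ha, a0⟩ := (((h0 t h.1).eventually (gt_mem_nhds h.2.1)).and
        self_mem_nhdsWithin).exists
      obtain ⟨b, hb, hab⟩ := (((h1 t h.1).eventually (lt_mem_nhds h.2.2)).and
        (eventually_ge_atTop a)).exists
      obtain ⟨ρ, hρ, e⟩ := intermediate_value_Icc hab (f := fun ρ => X (t, ρ))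
        (fun ρ hρ => (hd t ρ h.1 (lt_of_lt_of_le a0 hρ.1)).continuousAt.continuousWithinAt)
        ⟨ha.le, hb.le⟩
      exact ⟨ρ, fun _ => ⟨lt_of_lt_of_le a0 hρ.1, e⟩⟩
    · exact ⟨0, fun h' => absurd h' h⟩
  choose R hR using ex
  have cR : ContinuousOn R (Ici 0 ×ˢ Ioo 0 1) := by
    intro p hp
    have cX : ∀ a, 0 < a → ContinuousWithinAt (fun q : ℝ × ℝ => X (q.1, a) - q.2)
        (Ici 0 ×ˢ Ioo 0 1) p := fun a ha =>
      ((hX.continuousOn (p.1, a) (mem_Dm hp.1 ha)).comp (f := fun q : ℝ × ℝ => (q.1, a))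
        (by fun_prop) fun q hq => mem_Dm hq.1 ha).sub continuousWithinAt_snd
    refine tendsto_order.2 ⟨fun a ha => ?_, fun a ha => ?_⟩
    · rcases le_or_gt a 0 with a0 | a0
      · exact eventually_nhdsWithin_of_forall fun q hq => a0.trans_lt (hR q hq).1
      · have h2 : X (p.1, a) - p.2 < 0 := by
          rw [sub_neg, ← (hR p hp).2]
          exact mono p.1 hp.1 a0 (hR p hp).1 ha
        filter_upwards [(cX a a0).eventually (gt_mem_nhds h2), self_mem_nhdsWithin] with q h3 hq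
        rw [sub_neg, ← (hR q hq).2] at h3
        exact ((mono q.1 hq.1).lt_iff_lt a0 (hR q hq).1).1 h3
    · have a0 := (hR p hp).1.trans ha
      have h2 : 0 < X (p.1, a) - p.2 := by
        rw [sub_pos, ← (hR p hp).2]
        exact mono p.1 hp.1 (hR p hp).1 a0 ha
      filter_upwards [(cX a a0).eventually (lt_mem_nhds h2), self_mem_nhdsWithin] with q h3 hq
      rw [sub_pos, ← (hR q hq).2] at h3
      exact ((mono q.1 hq.1).lt_iff_lt (hR q hq).1 a0).1 h3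
  refine ⟨R, fun t x ht hx => ⟨(hR (t, x) ⟨ht, hx⟩).1, (hR (t, x) ⟨ht, hx⟩).2, ?_⟩, cR,
    fun t x ht hx => ?_⟩
  · have r0 := (hR (t, x) ⟨ht, hx⟩).1
    refine HasDerivAt.of_local_left_inverse (f := fun ρ => X (t, ρ)) ?_ (hd t _ ht r0)
      (hp _ (mem_Dm ht r0)).ne' ?_
    · exact (cR.comp (f := fun y => (t, y)) (s := Ioo 0 1) (by fun_prop)
        fun y hy => ⟨ht, hy⟩).continuousAt (Ioo_mem_nhds hx.1 hx.2)
    · filter_upwards [Ioo_mem_nhds hx.1 hx.2] with y hy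
      exact (hR (t, y) ⟨ht, hy⟩).2
  · obtain ⟨r0, e⟩ := hR (t, x) ⟨ht.le, hx⟩
    set q : ℝ × ℝ := (t, R (t, x)) with hq
    have hc : ContDiffAt ℝ ∞ X q := sm_at hX ht r0
    have hH : ContDiffAt ℝ ∞ (fun p : ℝ × ℝ => (p.1, X p)) q := contDiffAt_fst.prodMk hc
    have hD := hasFDerivAt_fst.prodMk (hc.differentiableAt (by simp)).hasFDerivAt
    have hinj : Function.Injective
        ((ContinuousLinearMap.fst ℝ ℝ ℝ).prod (fderiv ℝ X q)).toLinearMap := by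
      refine (injective_iff_map_eq_zero _).2 ?_
      rintro ⟨a, b⟩ h
      obtain ⟨rfl, h3⟩ : a = 0 ∧ fderiv ℝ X q (a, b) = 0 := Prod.ext_iff.1 h
      rw [show ((0 : ℝ), b) = b • ((0 : ℝ), (1 : ℝ)) by simp, map_smul, ← (dr_ev hc).eq_of_nhds,
        smul_eq_mul, mul_eq_zero] at h3
      rw [h3.resolve_right (hp _ (mem_Dm ht.le r0)).ne']
      rfl
    have hD' : HasFDerivAt (fun p : ℝ × ℝ => (p.1, X p))
        ((LinearEquiv.ofInjectiveEndo _ hinj).toContinuousLinearEquiv : ℝ × ℝ →L[ℝ] ℝ × ℝ) q :=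
      hD.congr_fderiv (ContinuousLinearMap.ext fun _ => rfl)
    have h2 := hH.to_localInverse hD' (by simp)
    have h3 := (hH.hasStrictFDerivAt' hD' (by simp)).localInverse_unique
      (g := fun p => (p.1, R p)) (by
        have h4 := hc.continuousAt.eventually (Ioo_mem_nhds (hx.1.trans_eq e.symm) (e.trans_lt hx.2))
        filter_upwards [h4, prod_mem_nhds (Ioi_mem_nhds ht) (Ioi_mem_nhds r0)] with p h5 h6
        obtain ⟨h7, h8⟩ := hR (p.1, X p) ⟨Ioi_subset_Ici_self h6.1, h5⟩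
        exact Prod.ext rfl ((mono p.1 (le_of_lt h6.1)).injOn h7 h6.2 h8))
    have h4 := (h2.congr_of_eventuallyEq h3).snd
    rwa [show ((q.1, X q) : ℝ × ℝ) = (t, x) from Prod.ext rfl e] at h4

end Vale.Agent.P264
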