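import Vale.Agent.P264.A.Basic

/-! P264 A/Line: second derivatives along lines, a criterion for positivity. -/

noncomputable section

open Set Filter Topology
open scoped ContDiff ComplexConjugate ComplexOrder

namespace Vale.Agent.P264

theorem line_diff {E : Type} [NormedAddCommGroup E] [NormedSpace ℝ E] {u : E → ℝ} {z : E}
    (hu : ContDiffAt ℝ 2 u z) : DifferentiableAt ℝ (fderiv ℝ u) z :=
  (hu.fderiv_right (m := 1) (by norm_num)).differentiableAt (by norm_num)

theorem line_ev {E : Type} [NormedAddCommGroup E] [NormedSpace ℝ E] {u : E → ℝ} {z : E}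
    (hu : ContDiffAt ℝ 2 u z) : ∀ᶠ y in 𝓝 z, DifferentiableAt ℝ u y :=
  (hu.eventually (by simp)).mono fun _ h => h.differentiableAt (by norm_num)

theorem d2_eq {n : ℕ} {u : (Fin n → ℂ) → ℝ} {z : Fin n → ℂ} (hu : ContDiffAt ℝ 2 u z)
    (v w : Fin n → ℂ) : d2 u z v w = fderiv ℝ (fderiv ℝ u) z v w := by
  rw [d2, fderiv_clm_apply (line_diff hu) (differentiableAt_const w)]
  simp

theorem line_gen {E : Type} [NormedAddCommGroup E] [NormedSpace ℝ E] {u : E → ℝ} {z : E}
    (hu : ContDiffAt ℝ 2 u z) (V : E) :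
    deriv (deriv fun s : ℝ => u (z + s • V)) 0 = fderiv ℝ (fderiv ℝ u) z V V := by
  have hγ : ∀ s : ℝ, HasDerivAt (fun s : ℝ => z + s • V) V s := fun s => by
    simpa using ((hasDerivAt_id s).smul_const V).const_add z
  have h0 : z + (0 : ℝ) • V = z := by simp
  have ht : Tendsto (fun s : ℝ => z + s • V) (𝓝 0) (𝓝 z) := by
    have := (hγ 0).continuousAt.tendsto
    rwa [h0] at this
  have e : (deriv fun s : ℝ => u (z + s • V)) =ᶠ[𝓝 0] fun s => fderiv ℝ u (z + s • V) V := by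
    filter_upwards [ht.eventually (line_ev hu)] with s hs
    exact (hs.hasFDerivAt.comp_hasDerivAt s (hγ s)).deriv
  have h1 : HasFDerivAt (fderiv ℝ u) (fderiv ℝ (fderiv ℝ u) z) (z + (0 : ℝ) • V) := by
    rw [h0]
    exact (line_diff hu).hasFDerivAt
  have h2 : HasDerivAt (fun s : ℝ => fderiv ℝ u (z + s • V)) (fderiv ℝ (fderiv ℝ u) z V) 0 :=
    h1.comp_hasDerivAt (0 : ℝ) (hγ 0)
  have h3 := (h2.clm_apply (hasDerivAt_const (0 : ℝ) V)).deriv
  rw [e.deriv_eq, h3, map_zero, add_zero]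

theorem d2_line {n : ℕ} {u : (Fin n → ℂ) → ℝ} {z : Fin n → ℂ} (hu : ContDiffAt ℝ 2 u z)
    (V : Fin n → ℂ) : d2 u z V V = deriv (deriv fun s : ℝ => u (z + s • V)) 0 := by
  rw [d2_eq hu, line_gen hu]

theorem line_quad {G : ℝ → ℝ} {σ : ℝ} (hG : ContDiffAt ℝ 2 G σ) (α : ℝ) :
    deriv (deriv fun s : ℝ => G (σ + α * s + s ^ 2)) 0 =
      α ^ 2 * deriv (deriv G) σ + 2 * deriv G σ := by
  have hγ : ∀ s : ℝ, HasDerivAt (fun s : ℝ => σ + α * s + s ^ 2) (α + 2 * s) s := fun s => by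
    simpa using (((hasDerivAt_id s).const_mul α).const_add σ).fun_add (hasDerivAt_pow 2 s)
  have h0 : σ + α * 0 + 0 ^ 2 = σ := by simp
  have ht : Tendsto (fun s : ℝ => σ + α * s + s ^ 2) (𝓝 0) (𝓝 σ) := by
    have := (hγ 0).continuousAt.tendsto
    rwa [h0] at this
  have e : (deriv fun s : ℝ => G (σ + α * s + s ^ 2)) =ᶠ[𝓝 0]
      fun s => deriv G (σ + α * s + s ^ 2) * (α + 2 * s) := by
    filter_upwards [ht.eventually (line_ev hG)] with s hs
    exact (hs.hasDerivAt.comp s (hγ s)).deriv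
  have h1 : HasDerivAt (deriv G) (deriv (deriv G) σ) (σ + α * 0 + 0 ^ 2) := by
    rw [h0]
    exact ((hG.derivWithin (m := 1) (by norm_num)).differentiableAt (by norm_num)).hasDerivAt
  have h2 := (h1.comp (0 : ℝ) (hγ 0)).fun_mul (((hasDerivAt_id (0 : ℝ)).const_mul 2).const_add α)
  rw [e.deriv_eq]
  refine h2.deriv.trans ?_
  simp only [Function.comp_apply, h0, id]
  ring

theorem line_zero {u : (Fin 7 → ℂ) → ℝ} {G : ℝ → ℝ} {σ : ℝ} (hσ : 0 < σ)
    (hu : ContDiffAt ℝ 2 u (pt σ)) (hG : ContDiffAt ℝ 2 G σ)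
    (h : ∀ ζ : ℂ, ζ ≠ 0 → u (Pi.single 0 ζ) = G (‖ζ‖ ^ 2)) :
    (cHess u (pt σ) 0 0).re = deriv G σ + σ * deriv (deriv G) σ := by
  have s0 := Real.sqrt_pos.2 hσ
  have s2 := Real.sq_sqrt hσ.le
  have key : ∀ (w : ℂ) (α : ℝ), (∀ s : ℝ, ‖((√σ : ℝ) : ℂ) + s • w‖ ^ 2 = σ + α * s + s ^ 2) →
      d2 u (pt σ) (Pi.single 0 w) (Pi.single 0 w) =
        α ^ 2 * deriv (deriv G) σ + 2 * deriv G σ := by
    intro w α hw
    rw [d2_line hu, ← line_quad hG α]
    refine (EventuallyEq.deriv ?_).deriv_eq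
    have hc : Continuous fun s : ℝ => ((√σ : ℝ) : ℂ) + s • w := by fun_prop
    have hne : ∀ᶠ s : ℝ in 𝓝 0, ((√σ : ℝ) : ℂ) + s • w ≠ 0 :=
      hc.continuousAt.eventually_ne (by simpa using s0.ne')
    filter_upwards [hne] with s hs
    rw [← hw, ← h _ hs, pt, ← Pi.single_smul', ← Pi.single_add]
  have k1 := key 1 (2 * √σ) fun s => by
    rw [Complex.sq_norm, Complex.normSq_apply]
    simp
    linear_combination s2
  have k2 := key Complex.I 0 fun s => by
    rw [Complex.sq_norm, Complex.normSq_apply]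
    simp
    linear_combination s2
  simp only [cHess, k1, k2]
  simp [-Complex.ofReal_pow, -Complex.ofReal_mul, -Complex.ofReal_add]
  linear_combination (deriv (deriv G) σ) * s2

theorem line_dec {n : ℕ} (V : Fin n → ℂ) : V = ∑ a, ((V a).re • (Pi.single a 1 : Fin n → ℂ) +
    (V a).im • (Pi.single a Complex.I : Fin n → ℂ)) := by
  funext b
  simp [Finset.sum_apply, Pi.single_apply, Finset.sum_add_distrib]

theorem line_bil {n : ℕ} (B : (Fin n → ℂ) →L[ℝ] (Fin n → ℂ) →L[ℝ] ℝ) (V : Fin n → ℂ) :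
    B V V = ∑ a, ∑ b, ((V a).re * (V b).re * B (Pi.single a 1) (Pi.single b 1) +
      (V a).re * (V b).im * B (Pi.single a 1) (Pi.single b Complex.I) +
      (V a).im * (V b).re * B (Pi.single a Complex.I) (Pi.single b 1) +
      (V a).im * (V b).im * B (Pi.single a Complex.I) (Pi.single b Complex.I)) := by
  conv_lhs => rw [line_dec V]
  simp only [map_sum, map_add, map_smul, sum_apply, add_apply, smul_apply,
    smul_eq_mul, Finset.mul_sum, ← Finset.sum_add_distrib]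
  rw [Finset.sum_comm]
  refine Finset.sum_congr rfl fun a _ => Finset.sum_congr rfl fun b _ => ?_
  ring

theorem hess_posDef {n : ℕ} {u : (Fin n → ℂ) → ℝ} {z : Fin n → ℂ} (hu : ContDiffAt ℝ 2 u z)
    (h : ∀ V : Fin n → ℂ, V ≠ 0 → 0 < d2 u z V V + d2 u z (Complex.I • V) (Complex.I • V)) :
    (cHess u z).PosDef := by
  have hs : ∀ v w, d2 u z v w = d2 u z w v := fun v w => by
    rw [d2_eq hu, d2_eq hu]
    exact (hu.isSymmSndFDerivAt (by simp)).eq v w
  have hH : (cHess u z).IsHermitian := by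
    ext a b
    simp only [Matrix.conjTranspose_apply, cHess, hs (Pi.single b _) (Pi.single a _)]
    apply Complex.ext <;> simp
  refine Matrix.PosDef.of_dotProduct_mulVec_pos hH fun x hx => ?_
  have him := hH.im_star_dotProduct_mulVec_self x
  have hp := h (star x) (star_ne_zero.2 hx)
  rw [d2_eq hu, d2_eq hu, line_bil, line_bil, ← Finset.sum_add_distrib] at hp
  refine Complex.pos_iff.2 ⟨?_, Eq.symm him⟩
  refine (mul_pos (by norm_num : (0 : ℝ) < 1 / 4) hp).trans_eq ?_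
  simp only [dotProduct, Matrix.mulVec, Finset.mul_sum, Complex.re_sum, ← Finset.sum_add_distrib]
  refine Finset.sum_congr rfl fun a _ => Finset.sum_congr rfl fun b _ => ?_
  simp [cHess, d2_eq hu]
  ring

end Vale.Agent.P264
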