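import Vale.Agent.P264.A.Hess
import Vale.Agent.P264.A.Line

/-! P264 A/Pos (TASK): `psi γ` is a Kaehler potential.
`pos_line`: one variable calculus. `pos_alg`: with `N = A + B`, the left side is `4 (m1 T1 + m3 T2)` and `T1 + T2` is the Fubini-Study form
`(a + b) / N - |α + β|² / N² > 0`, where `T1, T2 ≥ 0`: for `A, B > 0`, `T1 = (b - |β|² / B) / N`, `T2 = |α B - β A|² / (N² A B)`; for `A = 0` (`α = 0`)
`T2 = a / B`; for `B = 0` (`β = 0`) `T1 = b / A`, `T2 = 0`. `pos_kahler`: `hess_posDef`, `d2_line`; `chart j (z + s V) = Z + s W` with `Z = chart j z`,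
`W = insertNth j 0 V`; `nsq (Z + s W) = nsq Z + 2 s (∑ W conj Z).re + s² nsq W`, same for the tails; `α = W 0 conj (Z 0)`, `β = ∑ (tail W) conj (tail Z)`;
for `I • V` the real parts become minus the imaginary parts; Cauchy-Schwarz (`Finset.sum_mul_sq_le_sq_mul_sq`), strict because `W j = 0`, `Z j = 1`:
`|α + β|² ≤ nsq W (nsq Z - 1)`. -/

noncomputable section

open Set Filter Topology
open scoped ContDiff ComplexConjugate ComplexOrder

namespace Vale.Agent.P264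

theorem pos_line {γ : ℝ → ℝ} {N B : ℝ} (hN : 0 < N) (hγ : ContDiffAt ℝ 2 γ (B / N))
    (n1 n2 b1 b2 : ℝ) : deriv (deriv fun s : ℝ => Real.log (N + 2 * n1 * s + n2 * s ^ 2) +
      γ ((B + 2 * b1 * s + b2 * s ^ 2) / (N + 2 * n1 * s + n2 * s ^ 2))) 0 =
    2 * n2 / N - 4 * n1 ^ 2 / N ^ 2 + deriv γ (B / N) * (2 * b2 / N - 8 * b1 * n1 / N ^ 2 -
      2 * B * n2 / N ^ 2 + 8 * B * n1 ^ 2 / N ^ 3) +
      deriv (deriv γ) (B / N) * (2 * (b1 * N - B * n1) / N ^ 2) ^ 2 := by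
  have dP : ∀ s : ℝ, HasDerivAt (fun s : ℝ => N + 2 * n1 * s + n2 * s ^ 2) (2 * n1 + 2 * n2 * s) s :=
    fun s => ((((hasDerivAt_id' s).const_mul (2 * n1)).const_add N).fun_add
      ((hasDerivAt_pow 2 s).const_mul n2)).congr_deriv (by simp; ring)
  have dQ : ∀ s : ℝ, HasDerivAt (fun s : ℝ => B + 2 * b1 * s + b2 * s ^ 2) (2 * b1 + 2 * b2 * s) s :=
    fun s => ((((hasDerivAt_id' s).const_mul (2 * b1)).const_add B).fun_add
      ((hasDerivAt_pow 2 s).const_mul b2)).congr_deriv (by simp; ring)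
  have p0 : N + 2 * n1 * 0 + n2 * 0 ^ 2 ≠ 0 := by simpa using hN.ne'
  have e0 : (B + 2 * b1 * 0 + b2 * 0 ^ 2) / (N + 2 * n1 * 0 + n2 * 0 ^ 2) = B / N := by simp
  have c0 := ((dQ 0).fun_div (dP 0) p0).continuousAt
  have h1 : ∀ᶠ s in 𝓝 (0 : ℝ), N + 2 * n1 * s + n2 * s ^ 2 ≠ 0 := (dP 0).continuousAt.eventually_ne p0
  have h2 : ∀ᶠ s in 𝓝 (0 : ℝ), ContDiffAt ℝ 2 γ
      ((B + 2 * b1 * s + b2 * s ^ 2) / (N + 2 * n1 * s + n2 * s ^ 2)) := by
    have := hγ.eventually (by simp)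
    rw [← e0] at this
    exact c0.tendsto.eventually this
  have h3 : (deriv fun s : ℝ => Real.log (N + 2 * n1 * s + n2 * s ^ 2) +
      γ ((B + 2 * b1 * s + b2 * s ^ 2) / (N + 2 * n1 * s + n2 * s ^ 2))) =ᶠ[𝓝 0] fun s =>
      (2 * n1 + 2 * n2 * s) / (N + 2 * n1 * s + n2 * s ^ 2) +
        deriv γ ((B + 2 * b1 * s + b2 * s ^ 2) / (N + 2 * n1 * s + n2 * s ^ 2)) *
        (((2 * b1 + 2 * b2 * s) * (N + 2 * n1 * s + n2 * s ^ 2) -
          (B + 2 * b1 * s + b2 * s ^ 2) * (2 * n1 + 2 * n2 * s)) / (N + 2 * n1 * s + n2 * s ^ 2) ^ 2) := by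
    filter_upwards [h1, h2] with s a1 a2
    exact (((dP s).log a1).fun_add ((a2.differentiableAt (by simp)).hasDerivAt.comp s
      ((dQ s).fun_div (dP s) a1))).deriv
  have d1 : HasDerivAt (fun s : ℝ => 2 * n1 + 2 * n2 * s) (2 * n2) 0 :=
    (((hasDerivAt_id' (0 : ℝ)).const_mul (2 * n2)).const_add _).congr_deriv (by simp)
  have d2 : HasDerivAt (fun s : ℝ => 2 * b1 + 2 * b2 * s) (2 * b2) 0 :=
    (((hasDerivAt_id' (0 : ℝ)).const_mul (2 * b2)).const_add _).congr_deriv (by simp)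
  have g2 : HasDerivAt (deriv γ) (deriv (deriv γ) (B / N))
      ((B + 2 * b1 * 0 + b2 * 0 ^ 2) / (N + 2 * n1 * 0 + n2 * 0 ^ 2)) := by
    rw [e0]
    exact ((hγ.derivWithin (m := 1) (by norm_num)).differentiableAt (by simp)).hasDerivAt
  have g3 := HasDerivAt.comp (h₂ := deriv γ) (0 : ℝ) g2 ((dQ 0).fun_div (dP 0) p0)
  have g4 := ((d1.fun_div (dP 0) p0).fun_add (g3.fun_mul (((d2.fun_mul (dP 0)).fun_sub
      ((dQ 0).fun_mul d1)).fun_div ((dP 0).fun_pow 2) (pow_ne_zero 2 p0)))).deriv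
  refine h3.deriv_eq.trans (g4.trans ?_)
  simp only [Function.comp, e0]
  simp only [mul_zero, add_zero, ne_eq, OfNat.ofNat_ne_zero, not_false_eq_true, zero_pow]
  have := hN.ne'
  norm_num
  field_simp
  ring

theorem pos_alg {A B a b α1 α2 β1 β2 g1 g2 : ℝ} (hA : 0 ≤ A) (hB : 0 ≤ B) (hN : 0 < A + B)
    (ha : 0 ≤ a) (hb : 0 ≤ b) (hα : α1 ^ 2 + α2 ^ 2 = a * A) (hβ : β1 ^ 2 + β2 ^ 2 ≤ b * B)
    (hs : (α1 + β1) ^ 2 + (α2 + β2) ^ 2 < (a + b) * (A + B))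
    (h1 : 0 < 1 + (1 - B / (A + B)) * g1)
    (h3 : 0 < 1 + (1 - 2 * (B / (A + B))) * g1 + B / (A + B) * (1 - B / (A + B)) * g2) :
    0 < (2 * (a + b) / (A + B) - 4 * (α1 + β1) ^ 2 / (A + B) ^ 2 + g1 * (2 * b / (A + B) -
        8 * β1 * (α1 + β1) / (A + B) ^ 2 - 2 * B * (a + b) / (A + B) ^ 2 +
        8 * B * (α1 + β1) ^ 2 / (A + B) ^ 3) +
        g2 * (2 * (β1 * (A + B) - B * (α1 + β1)) / (A + B) ^ 2) ^ 2) +
      (2 * (a + b) / (A + B) - 4 * (α2 + β2) ^ 2 / (A + B) ^ 2 + g1 * (2 * b / (A + B) -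
        8 * β2 * (α2 + β2) / (A + B) ^ 2 - 2 * B * (a + b) / (A + B) ^ 2 +
        8 * B * (α2 + β2) ^ 2 / (A + B) ^ 3) +
        g2 * (2 * (β2 * (A + B) - B * (α2 + β2)) / (A + B) ^ 2) ^ 2) := by
  have hN' := hN.ne'
  have key : ∀ T1 T2 : ℝ, 0 ≤ T1 → 0 ≤ T2 →
      T1 + T2 = (a + b) / (A + B) - ((α1 + β1) ^ 2 + (α2 + β2) ^ 2) / (A + B) ^ 2 →
      0 < 4 * ((1 + (1 - B / (A + B)) * g1) * T1 +
        (1 + (1 - 2 * (B / (A + B))) * g1 + B / (A + B) * (1 - B / (A + B)) * g2) * T2) := by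
    intro T1 T2 t1 t2 e
    have : 0 < T1 + T2 := by
      rw [e, sub_pos, div_lt_div_iff₀ (by positivity) hN]
      nlinarith
    rcases t1.eq_or_lt with rfl | t1
    · have := mul_pos h3 (by linarith : 0 < T2)
      linarith
    · have := mul_pos h1 t1
      have := mul_nonneg h3.le t2
      linarith
  rcases hA.eq_or_lt with rfl | hA
  · obtain rfl : α1 = 0 := by nlinarith
    obtain rfl : α2 = 0 := by nlinarith
    have hB' : 0 < B := by linarith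
    have := key ((b * B - β1 ^ 2 - β2 ^ 2) / B ^ 2) (a / B) (div_nonneg (by linarith) (by positivity))
      (by positivity) (by simp only [zero_add]; field_simp; ring)
    convert this using 1
    simp only [zero_add]
    field_simp
    ring
  rcases hB.eq_or_lt with rfl | hB
  · obtain rfl : β1 = 0 := by nlinarith
    obtain rfl : β2 = 0 := by nlinarith
    obtain rfl : a = (α1 ^ 2 + α2 ^ 2) / A := by rw [hα]; field_simp
    have := key (b / A) 0 (by positivity) le_rfl (by simp only [add_zero]; field_simp; ring)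
    convert this using 1
    simp only [add_zero]
    field_simp
    ring
  obtain rfl : a = (α1 ^ 2 + α2 ^ 2) / A := by rw [hα]; field_simp
  have := key ((b * B - β1 ^ 2 - β2 ^ 2) / (B * (A + B)))
    (((α1 * B - β1 * A) ^ 2 + (α2 * B - β2 * A) ^ 2) / ((A + B) ^ 2 * A * B))
    (div_nonneg (by linarith) (by positivity)) (by positivity) (by field_simp; ring)
  convert this using 1
  field_simp
  ring

/-- The Hermitian product. -/
def posIp {n : ℕ} (W Z : Fin n → ℂ) : ℂ := ∑ k, W k * conj (Z k)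

theorem pos_nsq_line {n : ℕ} (Z W : Fin n → ℂ) (s : ℝ) :
    nsq (Z + s • W) = nsq Z + 2 * (posIp W Z).re * s + nsq W * s ^ 2 := by
  simp only [nsq, posIp, Complex.re_sum, Finset.mul_sum, Finset.sum_mul, ← Finset.sum_add_distrib]
  refine Finset.sum_congr rfl fun k _ => ?_
  simp only [Complex.sq_norm, Complex.normSq_apply]
  simp
  ring

theorem pos_nsq_smul {n : ℕ} (c : ℂ) (Z : Fin n → ℂ) : nsq (c • Z) = ‖c‖ ^ 2 * nsq Z := by
  simp [nsq, Finset.mul_sum, mul_pow]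

theorem pos_ip_I {n : ℕ} (W Z : Fin n → ℂ) : (posIp (Complex.I • W) Z).re = -(posIp W Z).im := by
  have : posIp (Complex.I • W) Z = Complex.I * posIp W Z := by
    simp [posIp, Finset.mul_sum, mul_assoc]
  simp [this]

theorem pos_cs {n : ℕ} (W Z : Fin n → ℂ) :
    (posIp W Z).re ^ 2 + (-(posIp W Z).im) ^ 2 ≤ nsq W * nsq Z := by
  have h1 : ‖posIp W Z‖ ≤ ∑ k, ‖W k‖ * ‖Z k‖ := (norm_sum_le _ _).trans (by simp)
  have h2 := (pow_le_pow_left₀ (norm_nonneg _) h1 2).trans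
    (Finset.sum_mul_sq_le_sq_mul_sq Finset.univ (fun k => ‖W k‖) fun k => ‖Z k‖)
  rw [Complex.sq_norm, Complex.normSq_apply] at h2
  unfold nsq
  linarith

theorem pos_succ (Z : Fin 8 → ℂ) : nsq Z = ‖Z 0‖ ^ 2 + nsq (Fin.tail Z) := Fin.sum_univ_succ _

theorem pos_mem {Z : Fin 8 → ℂ} (hZ : Z ≠ 0) : nsq (Fin.tail Z) / nsq Z ∈ Icc (0 : ℝ) 1 :=
  ⟨div_nonneg (nsq_nonneg _) (nsq_nonneg _),
    (div_le_one (nsq_pos hZ)).2 (by rw [pos_succ Z]; linarith [sq_nonneg ‖Z 0‖])⟩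

theorem pos_smooth {γ : ℝ → ℝ} (h : ∀ X ∈ Icc (0 : ℝ) 1, ContDiffAt ℝ ∞ γ X) {Z : Fin 8 → ℂ}
    (hZ : Z ≠ 0) : ContDiffAt ℝ ∞ (psi γ) Z := by
  have ht : ContDiff ℝ ∞ (fun Z : Fin 8 → ℂ => (Fin.tail Z : Fin 7 → ℂ)) :=
    contDiff_pi.2 fun k => contDiff_apply ℝ ℂ k.succ
  exact (h _ (pos_mem hZ)).comp Z
    ((contDiff_nsq.comp ht).contDiffAt.div contDiff_nsq.contDiffAt (nsq_pos hZ).ne')

theorem pos_main {γ : ℝ → ℝ} {Z W : Fin 8 → ℂ} (hZ : Z ≠ 0)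
    (h : ∀ X ∈ Icc (0 : ℝ) 1, ContDiffAt ℝ ∞ γ X ∧ 0 < m1 γ X ∧ 0 < m3 γ X)
    (hs : (posIp W Z).re ^ 2 + (-(posIp W Z).im) ^ 2 < nsq W * nsq Z) :
    0 < deriv (deriv fun s : ℝ => Real.log (nsq (Z + s • W)) + psi γ (Z + s • W)) 0 +
      deriv (deriv fun s : ℝ => Real.log (nsq (Z + s • Complex.I • W)) +
        psi γ (Z + s • Complex.I • W)) 0 := by
  obtain ⟨h0, h1, h3⟩ := h _ (pos_mem hZ)
  have t1 : ∀ (s : ℝ) (U : Fin 8 → ℂ), Fin.tail (Z + s • U) = Fin.tail Z + s • Fin.tail U :=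
    fun _ _ => rfl
  have t2 : Fin.tail (Complex.I • W) = Complex.I • Fin.tail W := rfl
  have t3 : posIp W Z = W 0 * conj (Z 0) + posIp (Fin.tail W) (Fin.tail Z) := Fin.sum_univ_succ _
  simp only [psi, t1, t2, pos_nsq_line, pos_ip_I, pos_nsq_smul, Complex.norm_I, one_pow, one_mul]
  rw [pos_line (nsq_pos hZ) (h0.of_le two_le_inf), pos_line (nsq_pos hZ) (h0.of_le two_le_inf)]
  have hN := nsq_pos hZ
  unfold m1 at h1
  unfold m3 at h3
  generalize deriv γ (nsq (Fin.tail Z) / nsq Z) = g1 at *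
  generalize deriv (deriv γ) (nsq (Fin.tail Z) / nsq Z) = g2 at *
  rw [t3, Complex.add_re, Complex.add_im, neg_add, pos_succ Z, pos_succ W] at hs ⊢
  rw [pos_succ Z] at hN h1 h3
  refine pos_alg (sq_nonneg _) (nsq_nonneg _) hN (sq_nonneg _) (nsq_nonneg _) ?_ (pos_cs _ _) hs h1 h3
  simp only [Complex.sq_norm, Complex.normSq_apply]
  simp
  ring

theorem pos_kahler {γ : ℝ → ℝ}
    (h : ∀ X ∈ Icc (0 : ℝ) 1, ContDiffAt ℝ ∞ γ X ∧ 0 < m1 γ X ∧ 0 < m3 γ X) :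
    IsKahlerPot (psi γ) := by
  refine ⟨fun Z hZ => (pos_smooth (fun X hX => (h X hX).1) hZ).contDiffWithinAt,
    fun c Z hc _ => ?_, fun j z => ?_⟩
  · have t : Fin.tail (c • Z) = c • Fin.tail Z := rfl
    rw [psi, t, pos_nsq_smul, pos_nsq_smul, mul_div_mul_left _ _ (by simpa using hc), psi]
  have e1 : chart j z j = 1 := by simp [chart]
  have hZ : chart j z ≠ 0 := fun e => by simp [e] at e1
  have hc : ContDiff ℝ ∞ (chart j) := contDiff_pi.2 fun k => by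
    refine Fin.succAboveCases j ?_ (fun i => ?_) k
    · simpa [chart] using contDiff_const
    · simpa [chart] using contDiff_apply ℝ ℂ i
  have hu : ContDiffAt ℝ 2 (pot (psi γ) j) z :=
    (((contDiff_nsq.comp hc).contDiffAt.log (nsq_pos hZ).ne').add
      ((pos_smooth (fun X hX => (h X hX).1) hZ).comp z hc.contDiffAt)).of_le two_le_inf
  refine hess_posDef hu fun V hV => ?_
  have e2 : ∀ (s : ℝ) (U : Fin 7 → ℂ), chart j (z + s • U) =
      chart j z + s • (Fin.insertNth j 0 U : Fin 8 → ℂ) := fun s U => funext fun k => by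
    refine Fin.succAboveCases j ?_ (fun i => ?_) k <;> simp [chart]
  have e3 : (Fin.insertNth j 0 (Complex.I • V) : Fin 8 → ℂ) =
      Complex.I • (Fin.insertNth j 0 V : Fin 8 → ℂ) := funext fun k => by
    refine Fin.succAboveCases j ?_ (fun i => ?_) k <;> simp
  have e4 : posIp (Fin.insertNth j 0 V : Fin 8 → ℂ) (chart j z) = posIp V z := by
    simp [posIp, chart, Fin.sum_univ_succAbove _ j]
  have e5 : nsq (Fin.insertNth j 0 V : Fin 8 → ℂ) = nsq V := by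
    simp [nsq, Fin.sum_univ_succAbove _ j]
  have e6 : nsq (chart j z) = 1 + nsq z := by
    simp [nsq, chart, Fin.sum_univ_succAbove _ j]
  rw [d2_line hu, d2_line hu]
  simp only [pot, e2, e3]
  refine pos_main hZ h ?_
  rw [e4, e5, e6]
  have := pos_cs V z
  have := nsq_pos hV
  linarith

end Vale.Agent.P264
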