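import Vale.Agent.P264.A.Hess

/-! P264 A/Sym (TASK): the unitary group is transitive on spheres; radial form of invariant potentials.
`sym_trans`: for `z ≠ 0` extend the unit vector to an orthonormal basis of `EuclideanSpace ℂ (Fin 7)`
(`Orthonormal.exists_orthonormalBasis_extension_of_card_eq`), `OrthonormalBasis.toMatrix_orthonormalBasis_mem_unitary`.
`chart 0 z = Fin.cons 1 z` (`Fin.insertNth_zero'`). `sym_one`: `chart 1 (single 0 ζ) = ζ • chart 0 (single 0 ζ⁻¹)`, then `sym_rad`.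
`sym_smooth`: `chart j` is smooth with values `≠ 0`, the sum of squares is positive. -/

noncomputable section

open Set Filter Topology
open scoped ContDiff ComplexConjugate ComplexOrder

namespace Vale.Agent.P264

theorem sym_nsq_eq {n : ℕ} (z : Fin n → ℂ) : ((nsq z : ℝ) : ℂ) = star z ⬝ᵥ z := by
  simp only [nsq, dotProduct, Pi.star_apply, Complex.ofReal_sum, Complex.ofReal_pow]
  refine Finset.sum_congr rfl fun k _ => ?_
  rw [Complex.star_def, Complex.conj_mul']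

theorem sym_nsq_nonneg {n : ℕ} (z : Fin n → ℂ) : 0 ≤ nsq z :=
  Finset.sum_nonneg fun _ _ => sq_nonneg _

theorem sym_nsq_pos {n : ℕ} {z : Fin n → ℂ} (hz : z ≠ 0) : 0 < nsq z := by
  obtain ⟨k, hk⟩ := Function.ne_iff.1 hz
  exact Finset.sum_pos' (fun _ _ => sq_nonneg _)
    ⟨k, Finset.mem_univ _, pow_pos (norm_pos_iff.2 hk) 2⟩

theorem sym_nsq_cons {n : ℕ} (a : ℂ) (z : Fin n → ℂ) :
    nsq (Fin.cons a z : Fin (n + 1) → ℂ) = ‖a‖ ^ 2 + nsq z := by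
  simp [nsq, Fin.sum_univ_succ]

theorem sym_nsq_single (ζ : ℂ) : nsq (Pi.single 0 ζ : Fin 7 → ℂ) = ‖ζ‖ ^ 2 := by
  unfold nsq
  rw [Finset.sum_eq_single 0]
  · simp
  · intro b _ hb
    simp [hb]
  · simp

theorem sym_nsq_pt {ρ : ℝ} (h : 0 ≤ ρ) : nsq (pt ρ) = ρ := by
  rw [pt, sym_nsq_single, Complex.norm_real, Real.norm_eq_abs, sq_abs, Real.sq_sqrt h]

theorem sym_nsq_smul {n : ℕ} (c : ℂ) (z : Fin n → ℂ) : nsq (c • z) = ‖c‖ ^ 2 * nsq z := by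
  simp [nsq, Finset.mul_sum, mul_pow]

theorem sym_chart_zero (z : Fin 7 → ℂ) : chart 0 z = Fin.cons 1 z := Fin.insertNth_zero' _ _

theorem sym_pot (Φ : (Fin 8 → ℂ) → ℝ) (j : Fin 8) (z : Fin 7 → ℂ) :
    pot Φ j z = Real.log (nsq (chart j z)) + Φ (chart j z) := rfl

theorem sym_nsq {U : Matrix (Fin 7) (Fin 7) ℂ} (hU : U ∈ Matrix.unitaryGroup (Fin 7) ℂ)
    (z : Fin 7 → ℂ) : nsq (U.mulVec z) = nsq z := by
  have h1 : star U * U = 1 := (Matrix.mem_unitaryGroup_iff').1 hU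
  apply Complex.ofReal_injective
  rw [sym_nsq_eq, sym_nsq_eq, Matrix.star_mulVec, Matrix.dotProduct_mulVec, Matrix.vecMul_vecMul,
    ← Matrix.star_eq_conjTranspose, h1, Matrix.vecMul_one]

theorem sym_trans (z : Fin 7 → ℂ) :
    ∃ U ∈ Matrix.unitaryGroup (Fin 7) ℂ, U.mulVec (pt (nsq z)) = z := by
  by_cases hz : z = 0
  · refine ⟨1, one_mem _, ?_⟩
    subst hz
    simp [pt, nsq]
  have hp := sym_nsq_pos hz
  have hs : ((√(nsq z) : ℝ) : ℂ) ≠ 0 := by exact_mod_cast (Real.sqrt_pos.2 hp).ne'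
  let v : Fin 7 → EuclideanSpace ℂ (Fin 7) := fun _ =>
    WithLp.toLp 2 (((√(nsq z) : ℝ) : ℂ)⁻¹ • z)
  have hv : Orthonormal ℂ (({0} : Set (Fin 7)).domRestrict v) := by
    refine ⟨fun i => ?_, fun i j hij => absurd (Subsingleton.elim i j) hij⟩
    have h1 : ‖v 0‖ ^ 2 = 1 := by
      rw [EuclideanSpace.norm_sq_eq]
      change nsq (((√(nsq z) : ℝ) : ℂ)⁻¹ • z) = 1
      rw [sym_nsq_smul, norm_inv, Complex.norm_real, Real.norm_eq_abs, inv_pow, sq_abs,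
        Real.sq_sqrt hp.le, inv_mul_cancel₀ hp.ne']
    have h2 : ‖v 0‖ = 1 := by
      have := norm_nonneg (v 0)
      nlinarith
    exact h2
  obtain ⟨b, hb⟩ := hv.exists_orthonormalBasis_extension_of_card_eq (by simp)
  refine ⟨(EuclideanSpace.basisFun (Fin 7) ℂ).toBasis.toMatrix b,
    (EuclideanSpace.basisFun (Fin 7) ℂ).toMatrix_orthonormalBasis_mem_unitary b, ?_⟩
  rw [pt, Matrix.mulVec_single]
  funext i
  have h3 : (EuclideanSpace.basisFun (Fin 7) ℂ).toBasis.toMatrix b i 0 =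
      ((√(nsq z) : ℝ) : ℂ)⁻¹ * z i := by
    rw [Module.Basis.toMatrix_apply, hb 0 rfl]
    simp [v]
  simp only [Pi.smul_apply, Matrix.col_apply, MulOpposite.smul_eq_mul_unop, MulOpposite.unop_op]
  rw [h3]
  field_simp

theorem sym_inv (γ : ℝ → ℝ) : Inv (psi γ) := by
  intro U hU a z _
  simp only [psi, Fin.tail_cons, sym_nsq_cons, sym_nsq hU]

theorem chart_ne (j : Fin 8) (z : Fin 7 → ℂ) : chart j z ≠ 0 := by
  intro h
  have := congrFun h j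
  simp [chart] at this

theorem sym_rad {Φ : (Fin 8 → ℂ) → ℝ} (hi : Inv Φ) (z : Fin 7 → ℂ) :
    pot Φ 0 z = pot Φ 0 (pt (nsq z)) := by
  obtain ⟨U, hU, h⟩ := sym_trans z
  have h1 := hi U hU 1 (pt (nsq z)) (by rw [← sym_chart_zero]; exact chart_ne _ _)
  rw [h] at h1
  rw [sym_pot, sym_pot, sym_chart_zero, sym_chart_zero, sym_nsq_cons, sym_nsq_cons,
    sym_nsq_pt (sym_nsq_nonneg z), h1]

theorem sym_one {Φ : (Fin 8 → ℂ) → ℝ} (hi : Inv Φ)
    (hom : ∀ (c : ℂ) (Z : Fin 8 → ℂ), c ≠ 0 → Z ≠ 0 → Φ (c • Z) = Φ Z) {ζ : ℂ} (hζ : ζ ≠ 0) :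
    pot Φ 1 (Pi.single 0 ζ) = Real.log (‖ζ‖ ^ 2) + pot Φ 0 (pt (‖ζ‖ ^ 2)⁻¹) := by
  have h1 : chart 1 (Pi.single 0 ζ) = ζ • chart 0 (Pi.single 0 ζ⁻¹) := by
    rw [sym_chart_zero, chart, Fin.insertNth_eq_iff]
    refine ⟨?_, ?_⟩
    · change (1 : ℂ) = ζ * (Pi.single 0 ζ⁻¹ : Fin 7 → ℂ) 0
      simp [hζ]
    · funext k
      fin_cases k
      · change (Pi.single 0 ζ : Fin 7 → ℂ) 0 = ζ * 1
        simp
      all_goals
        change (0 : ℂ) = ζ * 0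
        simp
  have h2 := sym_rad hi (Pi.single 0 ζ⁻¹)
  rw [sym_nsq_single, norm_inv, inv_pow] at h2
  rw [← h2, sym_pot, sym_pot, h1, hom ζ _ hζ (chart_ne _ _), sym_nsq_smul,
    Real.log_mul (pow_pos (norm_pos_iff.2 hζ) 2).ne' (sym_nsq_pos (chart_ne _ _)).ne', add_assoc]

theorem sym_psi (γ : ℝ → ℝ) {ρ : ℝ} (h : 0 ≤ ρ) :
    pot (psi γ) 0 (pt ρ) = Real.log (1 + ρ) + γ (ρ / (1 + ρ)) := by
  rw [sym_pot, sym_chart_zero]
  simp only [psi, Fin.tail_cons, sym_nsq_cons, sym_nsq_pt h, norm_one, one_pow]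

theorem sym_chart_smooth (j : Fin 8) : ContDiff ℝ ∞ (chart j) := by
  refine contDiff_pi.2 ((Fin.forall_iff_succAbove j).2 ⟨?_, fun i => ?_⟩)
  · simp only [chart, Fin.insertNth_apply_same]
    exact contDiff_const
  · simp only [chart, Fin.insertNth_apply_succAbove]
    exact contDiff_apply ℝ ℂ i

theorem sym_smooth {ψ0 : (Fin 8 → ℂ) → ℝ} {κ : ℝ} {φ : ℝ → (Fin 8 → ℂ) → ℝ} (h0 : IsKahlerPot ψ0)
    (h : IsCalabiFlow ψ0 κ φ) (j : Fin 8) : ContDiffOn ℝ ∞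
      (fun p : ℝ × (Fin 7 → ℂ) => pot (fun Z => ψ0 Z + φ p.1 Z) j p.2) (Ici 0 ×ˢ univ) := by
  have hc : ContDiff ℝ ∞ fun p : ℝ × (Fin 7 → ℂ) => chart j p.2 :=
    (sym_chart_smooth j).comp contDiff_snd
  have h1 : ContDiff ℝ ∞ fun p : ℝ × (Fin 7 → ℂ) => nsq (chart j p.2) :=
    ContDiff.sum fun k _ => (contDiff_pi.1 hc k).norm_sq ℂ
  have h2 : ContDiff ℝ ∞ fun p : ℝ × (Fin 7 → ℂ) => Real.log (nsq (chart j p.2)) :=
    h1.log fun p => (sym_nsq_pos (chart_ne _ _)).ne'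
  have h3 : ContDiffOn ℝ ∞ (fun p : ℝ × (Fin 7 → ℂ) => ψ0 (chart j p.2)) (Ici 0 ×ˢ univ) :=
    h0.smooth.comp hc.contDiffOn fun p _ => chart_ne _ _
  have h4 : ContDiffOn ℝ ∞ (fun p : ℝ × (Fin 7 → ℂ) => φ p.1 (chart j p.2)) (Ici 0 ×ˢ univ) :=
    h.smooth.comp (f := fun p : ℝ × (Fin 7 → ℂ) => (p.1, chart j p.2))
      (contDiff_fst.prodMk hc).contDiffOn fun p hp => ⟨hp.1, chart_ne _ _⟩
  exact h2.contDiffOn.add (h3.add h4)

theorem sym_d2 {u : ℝ × (Fin 7 → ℂ) → ℝ} (hu : ContDiffOn ℝ ∞ u (Ici 0 ×ˢ univ))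
    (v w : Fin 7 → ℂ) :
    ContinuousOn (fun p : ℝ × ℝ => d2 (fun z => u (p.1, z)) (pt p.2) v w) Dc := by
  have h1 := par_fderiv isOpen_univ (par_fderiv isOpen_univ hu w) v
  have h2 : Continuous fun p : ℝ × ℝ => (p.1, pt p.2) := by
    refine continuous_fst.prodMk ?_
    exact (continuous_single (A := fun _ : Fin 7 => ℂ) 0).comp
      (Complex.continuous_ofReal.comp (Real.continuous_sqrt.comp continuous_snd))
  exact h1.continuousOn.comp h2.continuousOn fun p hp => ⟨hp.1, mem_univ _⟩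

/-- The diagonal entries along the ray are continuous up to `t = 0`, `ρ = 0` (`par_fderiv` twice). -/
theorem sym_entry {u : ℝ × (Fin 7 → ℂ) → ℝ} (hu : ContDiffOn ℝ ∞ u (Ici 0 ×ˢ univ)) (a : Fin 7) :
    ContinuousOn (fun p : ℝ × ℝ => (cHess (fun z => u (p.1, z)) (pt p.2) a a).re) Dc := by
  have c := fun v w => Complex.continuous_ofReal.comp_continuousOn (sym_d2 hu v w)
  refine Complex.continuous_re.comp_continuousOn (continuousOn_const.mul ?_)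
  exact ((c _ _).add (c _ _)).add (continuousOn_const.mul ((c _ _).sub (c _ _)))

end Vale.Agent.P264
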