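import Vale.Agent.P264.A.Basic

/-! P264 A/Whit (TASK): Whitney's theorem for rotation invariant functions.
`whit_even`: induction on `k` for all `G`: near `0` the derivative of `b ↦ G (ρ + b²)` is `b * (2 G' (ρ + b²))` (`iteratedDeriv_succ'`,
`EventuallyEq.iteratedDeriv_eq`; smoothness near `ρ` from `ContDiffOn` on the open set), and
`iteratedDeriv (n + 1) (fun b => b * φ b) 0 = (n + 1) * iteratedDeriv n φ 0` (`iteratedDeriv_fun_mul`, `iteratedDeriv_id`).
`whit`: `F p = u (p.1, √p.2, 0)` on `Dm`; `dr^[k] F (t, ρ) = iteratedDeriv k (F (t, ·)) ρ`; the `2k`-fold `b`-derivative of `u` is smooth on `Ici 0 ×ˢ univ`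
(`par_fderiv` with `v = (0, 1)`, induction), evaluate it at `(t, √ρ, 0)`. -/

noncomputable section

open Set Filter Topology
open scoped ContDiff ComplexConjugate ComplexOrder

namespace Vale.Agent.P264

theorem whit_mul {ψ : ℝ → ℝ} (hψ : ContDiff ℝ ∞ ψ) (n : ℕ) (x : ℝ) :
    iteratedDeriv (n + 1) (fun b => b * ψ b) x =
      (n + 1) * iteratedDeriv n ψ x + x * iteratedDeriv (n + 1) ψ x := by
  have hd : ∀ m, Differentiable ℝ (iteratedDeriv m ψ) := fun m =>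
    hψ.differentiable_iteratedDeriv m (by exact_mod_cast ENat.natCast_lt_top m)
  induction n generalizing x with
  | zero =>
    simp only [zero_add, iteratedDeriv_one, iteratedDeriv_zero, Nat.cast_zero]
    exact ((hasDerivAt_id x).mul (hψ.differentiable (by simp) x).hasDerivAt).deriv
  | succ n ih =>
    rw [iteratedDeriv_succ, funext ih]
    have h := (((hd n x).hasDerivAt.const_mul ((n : ℝ) + 1)).add
      ((hasDerivAt_id x).mul (hd (n + 1) x).hasDerivAt)).deriv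
    refine h.trans ?_
    simp only [← iteratedDeriv_succ, id]
    push_cast
    ring

theorem whit_even (k : ℕ) : ∃ c : ℝ, 0 < c ∧ ∀ (G : ℝ → ℝ), ContDiffOn ℝ ∞ G (Ioi 0) → ∀ ρ : ℝ,
    0 < ρ → iteratedDeriv (2 * k) (fun b => G (ρ + b ^ 2)) 0 = c * iteratedDeriv k G ρ := by
  induction k with
  | zero => exact ⟨1, one_pos, fun G _ ρ _ => by simp⟩
  | succ k ih =>
    obtain ⟨c, hc, h⟩ := ih
    refine ⟨(2 * k + 1) * (2 * c), by positivity, fun G hG ρ hρ => ?_⟩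
    have hG' : ContDiffOn ℝ ∞ (deriv G) (Ioi 0) := hG.deriv_of_isOpen isOpen_Ioi (by simp)
    have hp : ∀ b : ℝ, ρ + b ^ 2 ∈ Ioi (0 : ℝ) := fun b => by
      simp only [mem_Ioi]
      positivity
    have hψ : ContDiff ℝ ∞ fun b : ℝ => deriv G (ρ + b ^ 2) :=
      hG'.comp_contDiff (by fun_prop) hp
    have e : deriv (fun b => G (ρ + b ^ 2)) = fun b => b * (2 * deriv G (ρ + b ^ 2)) := by
      funext b
      have h1 := ((hG.contDiffAt (isOpen_Ioi.mem_nhds (hp b))).differentiableAt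
        (by simp)).hasDerivAt
      have h2 := h1.comp b (((hasDerivAt_id b).pow 2).const_add ρ)
      refine h2.deriv.trans ?_
      simp only [id]
      ring
    rw [show 2 * (k + 1) = 2 * k + 1 + 1 by ring, iteratedDeriv_succ', e,
      whit_mul (contDiff_const.mul hψ), zero_mul, add_zero, iteratedDeriv_const_mul_field,
      h _ hG' ρ hρ, iteratedDeriv_succ']
    push_cast
    ring

theorem whit_dr (F : ℝ × ℝ → ℝ) (k : ℕ) (p : ℝ × ℝ) :
    dr^[k] F p = iteratedDeriv k (fun ρ => F (p.1, ρ)) p.2 := by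
  induction k generalizing p with
  | zero => simp
  | succ k ih =>
    rw [Function.iterate_succ_apply', iteratedDeriv_succ, dr]
    simp only [ih]

theorem whit_par {u : ℝ × (ℝ × ℝ) → ℝ} (hu : ContDiffOn ℝ ∞ u (Ici 0 ×ˢ univ)) (m : ℕ) :
    ContDiffOn ℝ ∞ (fun p : ℝ × (ℝ × ℝ) => iteratedDeriv m (fun b => u (p.1, p.2.1, b)) p.2.2)
      (Ici 0 ×ˢ univ) := by
  induction m with
  | zero => simpa using hu
  | succ m ih =>
    refine (par_fderiv isOpen_univ ih ((0 : ℝ), (1 : ℝ))).congr fun p hp => ?_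
    have h1 := ((par_slice isOpen_univ ih hp.1 (mem_univ p.2)).differentiableAt
      (by simp)).hasFDerivAt
    have h2 : HasDerivAt (fun b : ℝ => (p.2.1, b)) ((0 : ℝ), (1 : ℝ)) p.2.2 :=
      (hasDerivAt_const _ _).prodMk (hasDerivAt_id _)
    rw [iteratedDeriv_succ]
    exact (h1.comp_hasDerivAt p.2.2 h2).deriv

theorem whit {u : ℝ × (ℝ × ℝ) → ℝ} (hu : ContDiffOn ℝ ∞ u (Ici 0 ×ˢ univ)) {F : ℝ × ℝ → ℝ}
    (h : ∀ t r b : ℝ, 0 ≤ t → 0 < r ^ 2 + b ^ 2 → u (t, r, b) = F (t, r ^ 2 + b ^ 2)) :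
    Bd F := by
  have e : ∀ t ρ b : ℝ, 0 ≤ t → 0 < ρ → u (t, √ρ, b) = F (t, ρ + b ^ 2) := fun t ρ b ht hρ => by
    rw [h t _ b ht (by positivity), Real.sq_sqrt hρ.le]
  have hF : ContDiffOn ℝ ∞ F Dm := by
    have h1 : ContDiffOn ℝ ∞ (fun p : ℝ × ℝ => (p.1, √p.2, (0 : ℝ))) Dm :=
      contDiffOn_fst.prodMk ((contDiffOn_snd.sqrt fun p hp => (ne_of_gt hp.2)).prodMk
        contDiffOn_const)
    refine (hu.comp h1 fun p hp => ⟨hp.1, mem_univ _⟩).congr fun p hp => ?_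
    simp [e p.1 p.2 0 hp.1 hp.2]
  refine ⟨hF, fun k => ?_⟩
  obtain ⟨c, hc, hk⟩ := whit_even k
  refine ⟨fun p => c⁻¹ * iteratedDeriv (2 * k) (fun b => u (p.1, √p.2, b)) 0, ?_, fun p hp => ?_⟩
  · refine continuousOn_const.mul ((whit_par hu (2 * k)).continuousOn.comp
      (f := fun p : ℝ × ℝ => (p.1, √p.2, (0 : ℝ))) (by fun_prop) fun p hp => ⟨hp.1, mem_univ _⟩)
  · have hG : ContDiffOn ℝ ∞ (fun ρ => F (p.1, ρ)) (Ioi 0) :=
      hF.comp (by fun_prop) fun ρ hρ => ⟨hp.1, hρ⟩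
    simp only [whit_dr, fun b => e p.1 p.2 b hp.1 hp.2]
    rw [hk _ hG p.2 hp.2, inv_mul_cancel_left₀ hc.ne']

end Vale.Agent.P264
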