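import Vale.Agent.P264.A.Mk
import Vale.Agent.P264.A.Init
import Vale.Agent.P264.A.Pos
import Vale.Agent.P264.A.Sym
import Vale.Agent.P264.A.Whit

/-! P264 A/Main: block A. -/

noncomputable section

open Set Filter Topology
open scoped ContDiff ComplexConjugate ComplexOrder

namespace Vale.Agent.P264

theorem main_nsq (ζ : ℂ) : nsq (Pi.single (0 : Fin 7) ζ) = ‖ζ‖ ^ 2 := by
  simp [nsq, Fin.sum_univ_succ]

theorem main_bd {u : ℝ × (Fin 7 → ℂ) → ℝ} (hu : ContDiffOn ℝ ∞ u (Ici 0 ×ˢ univ))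
    (h : ∀ t, 0 ≤ t → ∀ ζ : ℂ, ζ ≠ 0 → u (t, Pi.single 0 ζ) = u (t, pt (‖ζ‖ ^ 2))) :
    Bd fun q => u (q.1, pt q.2) := by
  refine whit (u := fun p => u (p.1, Pi.single 0 ((p.2.1 : ℂ) + p.2.2 * Complex.I)))
    (hu.comp (ContDiff.contDiffOn (contDiff_fst.prodMk (contDiff_pi.2 fun k => ?_)))
      fun p hp => ⟨hp.1, mem_univ _⟩) fun t r b ht hrb => ?_
  · have c : ContDiff ℝ ∞ fun x : ℝ => (x : ℂ) := Complex.ofRealCLM.contDiff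
    rcases eq_or_ne k 0 with rfl | hk
    · simp only [Pi.single_eq_same]
      fun_prop
    · simp only [Pi.single_eq_of_ne hk]
      fun_prop
  · have e : ‖(r : ℂ) + b * Complex.I‖ ^ 2 = r ^ 2 + b ^ 2 := by
      rw [← Complex.normSq_eq_norm_sq, Complex.normSq_add_mul_I]
    rw [← e] at hrb ⊢
    exact h t ht _ fun h0 => by simp [h0] at hrb

theorem main_nz {u : ℝ × (Fin 7 → ℂ) → ℝ} (hu : ContDiffOn ℝ ∞ u (Ici 0 ×ˢ univ))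
    (hp : ∀ t, 0 ≤ t → ∀ z, (cHess (fun z => u (t, z)) z).PosDef) (a : Fin 7) {f : ℝ × ℝ → ℝ}
    (h : ∀ q ∈ Dm, (cHess (fun z => u (q.1, z)) (pt q.2) a a).re = f q) : NZ f :=
  ⟨_, sym_entry hu a, fun q hq => (h q hq).symm,
    fun q hq => (Complex.pos_iff.1 ((hp q.1 hq.1 _).diag_pos (i := a))).1⟩

theorem main_nz0 {u : ℝ × (Fin 7 → ℂ) → ℝ} (hu : ContDiffOn ℝ ∞ u (Ici 0 ×ˢ univ))
    (hp : ∀ t, 0 ≤ t → ∀ z, (cHess (fun z => u (t, z)) z).PosDef)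
    (h : ∀ t, 0 ≤ t → ∀ ζ : ℂ, ζ ≠ 0 → u (t, Pi.single 0 ζ) = u (t, pt (‖ζ‖ ^ 2))) :
    NZ (pF fun q => u (q.1, pt q.2)) :=
  main_nz hu hp 0 fun q hq => line_zero (G := fun ρ => u (q.1, pt ρ)) hq.2
    ((par_slice isOpen_univ hu hq.1 (mem_univ _)).of_le two_le_inf)
    ((par_slice isOpen_Ioi (main_bd hu h).1 hq.1 hq.2).of_le two_le_inf) (h q.1 hq.1)

theorem main_init {γ : ℝ → ℝ} (hγ : ∀ X ∈ Icc (0 : ℝ) 1, ContDiffAt ℝ ∞ γ X) {F : ℝ × ℝ → ℝ}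
    (hF : ∀ ρ, 0 < ρ → F (0, ρ) = Real.log (1 + ρ) + γ (ρ / (1 + ρ))) {ρ : ℝ} (hρ : 0 < ρ) :
    xF F (0, ρ) = ρ / (1 + ρ) * m1 γ (ρ / (1 + ρ)) ∧
      ρ * pF F (0, ρ) = ρ / (1 + ρ) * (1 - ρ / (1 + ρ)) * m3 γ (ρ / (1 + ρ)) := by
  have mem : ∀ ρ : ℝ, 0 < ρ → ρ / (1 + ρ) ∈ Icc (0 : ℝ) 1 := fun ρ hρ =>
    ⟨by positivity, (div_le_one (by positivity)).2 (by linarith)⟩
  have dX : ∀ ρ : ℝ, 0 < ρ → HasDerivAt (fun ρ : ℝ => ρ / (1 + ρ)) (((1 + ρ) ^ 2)⁻¹) ρ := fun ρ hρ =>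
    ((hasDerivAt_id' ρ).fun_div ((hasDerivAt_id' ρ).const_add 1) (by positivity)).congr_deriv
      (by simp)
  have e1 : ∀ ρ : ℝ, 0 < ρ →
      dr F (0, ρ) = 1 / (1 + ρ) + deriv γ (ρ / (1 + ρ)) * ((1 + ρ) ^ 2)⁻¹ := fun ρ hρ =>
    (Filter.EventuallyEq.deriv_eq ((eventually_gt_nhds hρ).mono hF)).trans
      ((((hasDerivAt_id' ρ).const_add 1).log (by positivity)).fun_add
        (((hγ _ (mem ρ hρ)).differentiableAt (by simp)).hasDerivAt.comp ρ (dX ρ hρ))).deriv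
  have d1 : DifferentiableAt ℝ (deriv γ) (ρ / (1 + ρ)) :=
    (((hγ _ (mem ρ hρ)).fderiv_right (m := ∞) (by simp)).differentiableAt (by simp)).clm_apply
      (differentiableAt_const 1)
  have d2 := (hasDerivAt_id' ρ).const_add 1
  have d3 : HasDerivAt (fun ρ => deriv γ (ρ / (1 + ρ))) _ ρ :=
    HasDerivAt.comp (h₂ := deriv γ) ρ d1.hasDerivAt (dX ρ hρ)
  have e2 : dr (dr F) (0, ρ) = _ :=
    (Filter.EventuallyEq.deriv_eq ((eventually_gt_nhds hρ).mono e1)).trans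
      (((hasDerivAt_const ρ (1 : ℝ)).fun_div d2 (by positivity)).fun_add
        (d3.fun_mul ((d2.fun_pow 2).fun_inv (by positivity)))).deriv
  simp only [xF, pF, e2, e1 ρ hρ, m1, m3]
  generalize deriv γ (ρ / (1 + ρ)) = g1
  generalize deriv (deriv γ) (ρ / (1 + ρ)) = g2
  constructor
  · field_simp
    ring
  · norm_num
    field_simp
    ring

theorem blockA' (c : Polynomial ℝ) (hc : InitOK c) :
    ∃ ψ0, IsKahlerPot ψ0 ∧ Inv ψ0 ∧ ∀ κ φ, IsCalabiFlow ψ0 κ φ → (∀ t, 0 ≤ t → Inv (φ t)) →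
      ∃ S : Sol, Starts S c := by
  obtain ⟨γ, hγ⟩ := init_gamma c hc
  have h0 := pos_kahler fun X hX => ⟨(hγ X hX).1, (hγ X hX).2.1, (hγ X hX).2.2.1⟩
  refine ⟨psi γ, h0, sym_inv γ, fun κ φ h hi => ?_⟩
  have hI : ∀ t, 0 ≤ t → Inv fun Z => psi γ Z + φ t Z := fun t ht U hU a z hz => by
    simp only [sym_inv γ U hU a z hz, hi t ht U hU a z hz]
  have u0 := sym_smooth h0 h 0
  have u1 := sym_smooth h0 h 1
  have r0 : ∀ t, 0 ≤ t → ∀ ζ : ℂ, ζ ≠ 0 → pot (fun Z => psi γ Z + φ t Z) 0 (Pi.single 0 ζ) =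
      pot (fun Z => psi γ Z + φ t Z) 0 (pt (‖ζ‖ ^ 2)) := fun t ht ζ _ => by
    rw [sym_rad (hI t ht), main_nsq]
  have r2 : ∀ t, 0 ≤ t → ∀ σ, 0 < σ → pot (fun Z => psi γ Z + φ t Z) 1 (pt σ) =
      Real.log σ + pot (fun Z => psi γ Z + φ t Z) 0 (pt σ⁻¹) := fun t ht σ hσ => by
    have := sym_one (hI t ht) (h.kahler t ht).hom (ζ := (√σ : ℝ))
      (Complex.ofReal_ne_zero.2 (Real.sqrt_pos.2 hσ).ne')
    rwa [Complex.norm_real, Real.norm_eq_abs, sq_abs, Real.sq_sqrt hσ.le] at this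
  have r1 : ∀ t, 0 ≤ t → ∀ ζ : ℂ, ζ ≠ 0 → pot (fun Z => psi γ Z + φ t Z) 1 (Pi.single 0 ζ) =
      pot (fun Z => psi γ Z + φ t Z) 1 (pt (‖ζ‖ ^ 2)) := fun t ht ζ hζ => by
    rw [sym_one (hI t ht) (h.kahler t ht).hom hζ, r2 t ht _ (pow_pos (norm_pos_iff.2 hζ) 2)]
  have bF := main_bd u0 r0
  set F : ℝ × ℝ → ℝ := fun q => pot (fun Z => psi γ Z + φ q.1 Z) 0 (pt q.2) with hF
  have n1 : NZ (dr F) := main_nz u0 (fun t ht => (h.kahler t ht).pos 0) 1 fun q hq => by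
    have e := nsq_pt (le_of_lt hq.2)
    rw [hess_rad (F := fun ρ => F (q.1, ρ)) (by
      rw [e]; exact (par_slice isOpen_Ioi bF.1 hq.1 hq.2).of_le two_le_inf)
      (Eventually.of_forall (sym_rad (hI q.1 hq.1))), e]
    simp [pt, dr]
  have n2 := main_nz0 u0 (fun t ht => (h.kahler t ht).pos 0) r0
  have T : Two F fun q => pot (fun Z => psi γ Z + φ q.1 Z) 1 (pt q.2) :=
    ⟨bF, main_bd u1 r1, fun p hp => r2 p.1 hp.1 p.2 hp.2, n1, n2,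
      main_nz0 u1 (fun t ht => (h.kahler t ht).pos 1) r1⟩
  obtain ⟨S, hS⟩ := T.sol (κ := κ) fun t ρ ht hρ => by
    rw [← hess_scal (F := fun ρ => F (t, ρ))
      (fun ρ hρ => (par_slice isOpen_Ioi bF.1 ht.le hρ).contDiffWithinAt)
      (fun z _ => sym_rad (hI t ht.le) z) (fun ρ hρ => n1.pos (mem_Dm ht.le hρ))
      (fun ρ hρ => n2.pos (mem_Dm ht.le hρ)) hρ]
    exact ((h.eqn t ht 0 (pt ρ)).const_add (psi γ (chart 0 (pt ρ)))).const_add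
      (Real.log (∑ k, ‖chart 0 (pt ρ) k‖ ^ 2))
  refine ⟨S, fun x hx => ?_⟩
  obtain ⟨ρ, hρ, e1, e2⟩ := hS x hx
  obtain ⟨e3, e4⟩ := main_init (fun X hX => (hγ X hX).1) (F := F) (fun ρ hρ => by
    rw [← sym_psi γ hρ.le]
    simp only [hF, pot, h.init _ (chart_ne 0 _), add_zero]) hρ
  have e5 := (hγ (ρ / (1 + ρ)) ⟨by positivity, (div_le_one (by positivity)).2 (by linarith)⟩).2.2.2
  have e6 := T.y_eq (mem_Dm le_rfl hρ)
  have a0 := (n1.pos (mem_Dm le_rfl hρ)).ne'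
  rw [← e3, ← e4, e1] at e5
  rw [e1, ← e2] at e6
  have e7 : ρ * pF F (0, ρ) = x * (pF F (0, ρ) * (dr F (0, ρ))⁻¹) := by
    rw [← e1, xF]
    field_simp
  rw [e7, ← e6, mul_assoc] at e5
  have e8 := mul_left_cancel₀ hx.1.ne' e5
  refine mul_left_cancel₀ hx.1.ne' ?_
  linear_combination -e8

end Vale.Agent.P264
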