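import Vale.Agent.P264.A.Red

/-! P264 A/Mk: construction of the reduced solution. -/

noncomputable section

open Set Filter Topology
open scoped ContDiff

namespace Vale.Agent.P264

theorem mk_abs {w : ℕ → ℝ} {C x : ℝ} (hx : x ∈ Ioo (0 : ℝ) 1) (h : ∀ k ≤ 5, |w k| ≤ C) {a b : ℝ}
    (ha : a ∈ Icc (0 : ℝ) 30) (hb : b ∈ Icc (0 : ℝ) 110) {k : ℕ} (hk : k ≤ 3) :
    |x ^ 2 * w (k + 2) + a * x * w (k + 1) + b * w k| ≤ 141 * C := by
  have C0 := (abs_nonneg _).trans (h 0 (by norm_num))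
  have x0 := hx.1.le
  have h1 : x ^ 2 ≤ 1 := pow_le_one₀ x0 hx.2.le
  have h2 : a * x ≤ 30 := (mul_le_of_le_one_right ha.1 hx.2.le).trans ha.2
  refine (abs_add_three _ _ _).trans ?_
  rw [abs_mul, abs_mul (a * x), abs_mul b, abs_of_nonneg (sq_nonneg x),
    abs_of_nonneg (mul_nonneg ha.1 x0), abs_of_nonneg hb.1]
  have e1 := mul_le_mul h1 (h (k + 2) (by omega)) (abs_nonneg _) zero_le_one
  have e2 := mul_le_mul h2 (h (k + 1) (by omega)) (abs_nonneg _) (by norm_num)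
  have e3 := mul_le_mul hb.2 (h k (by omega)) (abs_nonneg _) (by norm_num)
  linarith

theorem Two.sol {F G : ℝ × ℝ → ℝ} (h : Two F G) {κ : ℝ} (he : ∀ t ρ, 0 < t → 0 < ρ →
      HasDerivAt (fun τ => F (τ, ρ)) (scR (fun ρ => F (t, ρ)) ρ - κ) t) :
    ∃ S : Sol, ∀ x ∈ Ioo (0 : ℝ) 1, ∃ ρ, 0 < ρ ∧ xF F (0, ρ) = x ∧ S.w 0 x 0 = WF F 0 (0, ρ) := by
  have dX : ∀ q ∈ Dm, dr (xF F) q = pF F q := fun q hq => (hd_x h.hF hq).deriv
  obtain ⟨R, h1, h2, h3⟩ := inv_R (bd_x h.hF).1 (fun q hq => (h.n2.pos hq).trans_eq (dX q hq).symm)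
    (fun t ht => h.hF.dr.ext.mul_lim ht) fun t ht => h.lim1 ht
  have bW := bd_W h.hF h.n1 h.n2
  set W : ℕ → ℝ × ℝ → ℝ := fun k p => WF F k (p.1, R p) with hW
  have dx : ∀ k t x, 0 ≤ t → x ∈ Ioo (0 : ℝ) 1 →
      HasDerivAt (fun y => W k (t, y)) (W (k + 1) (t, x)) x := fun k t x ht hx => by
    obtain ⟨r0, -, hd⟩ := h1 t x ht hx
    have hq := mem_Dm ht r0
    refine ((hd_W h.hF h.n1 h.n2 hq k).comp x hd).congr_deriv ?_
    rw [dX _ hq, mul_inv_cancel_right₀ (h.n2.pos hq).ne']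
  have sm : ∀ k t x, 0 < t → x ∈ Ioo (0 : ℝ) 1 → ContDiffAt ℝ ∞ (W k) (t, x) := fun k t x ht hx =>
    (sm_at (bW k).1 (p := (t, R (t, x))) ht (h1 t x ht.le hx).1).comp (t, x)
      (contDiffAt_fst.prodMk (h3 t x ht hx))
  have hy : ∀ t x, 0 ≤ t → x ∈ Ioo (0 : ℝ) 1 → 0 < 1 - x * W 0 (t, x) := fun t x ht hx => by
    obtain ⟨r0, e, -⟩ := h1 t x ht hx
    have hq := mem_Dm ht r0
    have := h.y_eq hq
    rw [e] at this
    exact (mul_pos (h.n2.pos hq) (inv_pos.2 (h.n1.pos hq))).trans_eq this.symm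
  have hb : ∀ T, ∃ C, 0 < C ∧ ∀ t ∈ Icc 0 T, ∀ x ∈ Ioo (0 : ℝ) 1, (∀ k ≤ 5, |W k (t, x)| ≤ C) ∧
      |W 1 (t, x)| ≤ C * (1 - x) ∧ 1 - x * W 0 (t, x) ≤ C * (1 - x) ∧
        C⁻¹ * (1 - x) ≤ 1 - x * W 0 (t, x) := fun T => (h.bound T).imp fun C hC =>
    ⟨hC.1, fun t ht x hx => by
      obtain ⟨r0, e, -⟩ := h1 t x ht.1 hx
      have := hC.2 t ht _ r0
      rwa [e] at this⟩
  refine ⟨⟨fun t x k => W k (t, x), fun t x k => dt (W k) (t, x), dx,
    fun k t x ht hx => hd_dt (sm k t x ht hx), fun k t x ht hx => ?_, fun k => ?_,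
    fun k p hp => (cd_dt (sm k p.1 p.2 hp.1 hp.2)).continuousAt.continuousWithinAt,
    fun t x ht hx => ?_, hy, fun T => ?_, fun T => ?_⟩, fun x hx =>
      ⟨R (0, x), (h1 0 x le_rfl hx).1, (h1 0 x le_rfl hx).2.1, rfl⟩⟩
  · refine (hd_dr (cd_dt (sm k t x ht hx))).congr_deriv ?_
    rw [← dt_dr (sm k t x ht hx)]
    refine dt_ev_congr ?_
    filter_upwards [prod_mem_nhds (Ioi_mem_nhds ht) (Ioo_mem_nhds hx.1 hx.2)] with p hp
    exact (dx k p.1 p.2 (Ioi_subset_Ici_self hp.1) hp.2).deriv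
  · exact (bW k).1.continuousOn.comp (continuousOn_fst.prodMk h2)
      fun p hp => mem_Dm hp.1 (h1 p.1 p.2 hp.1 hp.2).1
  · obtain ⟨r0, e, -⟩ := h1 t x ht.le hx
    have hq := mem_Dm ht.le r0
    have chain : ∀ f : ℝ × ℝ → ℝ, ContDiffOn ℝ ∞ f Dm → HasDerivAt (fun τ => f (τ, R (τ, x)))
        (dt f (t, R (t, x)) + dt R (t, x) * dr f (t, R (t, x))) t := fun f hf => by
      have hc := sm_at hf (p := (t, R (t, x))) ht r0
      refine ((hc.differentiableAt (by simp)).hasFDerivAt.comp_hasDerivAt t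
        ((hasDerivAt_id' t).prodMk (hd_dt (h3 t x ht hx)))).congr_deriv ?_
      rw [(dt_ev hc).eq_of_nhds, (dr_ev hc).eq_of_nhds, ← smul_eq_mul, ← map_smul, ← map_add]
      simp
    have c1 := (chain _ (bd_x h.hF).1).unique ((hasDerivAt_const t x).congr_of_eventuallyEq
      ((eventually_gt_nhds ht).mono fun τ hτ => (h1 τ x (le_of_lt hτ) hx).2.1))
    have c2 := pde_eq (q := (t, R (t, x))) h.hF h.n1 h.n2 he ht r0
    have c3 : dr (WF F 0) _ = _ := (hd_W h.hF h.n1 h.n2 hq 0).deriv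
    rw [e] at c2
    rw [dX _ hq] at c1
    refine ((chain _ (bW 0).1).deriv.trans ?_).trans c2
    rw [c3]
    linear_combination WF F 1 (t, R (t, x)) * c1
  · obtain ⟨C, C0, hC⟩ := hb T
    refine ⟨C, fun t ht x hx => ?_⟩
    have hx' : x ∈ Ioo (0 : ℝ) 1 := ⟨hx.1, by linarith [hx.2]⟩
    refine ⟨(hC t ht x hx').1 0 (by norm_num), fun k k1 k5 => ?_⟩
    rw [mul_comm C]
    refine mul_le_mul ((pow_le_of_le_one hx.1.le hx'.2.le (by omega)).trans ?_)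
      ((hC t ht x hx').1 k k5) (abs_nonneg _) (Real.sqrt_nonneg _)
    exact Real.le_sqrt_of_sq_le (by nlinarith [hx'.1, hx'.2])
  · obtain ⟨C, C0, hC⟩ := hb T
    refine ⟨141 * C, C⁻¹, inv_pos.2 C0, fun t ht x hx => ?_⟩
    have hx' : x ∈ Ioo (0 : ℝ) 1 := ⟨by linarith [hx.1], hx.2⟩
    obtain ⟨a1, a2, a3, a4⟩ := hC t ht x hx'
    have x1 : 0 < 1 - x := sub_pos.2 hx.2
    have s1 : 1 - x ≤ √(1 - x) := Real.le_sqrt_of_sq_le (by nlinarith [hx'.1])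
    have s2 : √(1 - x) ≤ 1 := Real.sqrt_le_one.2 (by linarith [hx'.1])
    have s3 := Real.sqrt_nonneg (1 - x)
    have m := fun (a b : ℝ) ha hb (k : ℕ) hk =>
      mk_abs (w := fun k => W k (t, x)) hx' a1 (a := a) (b := b) ha hb (k := k) hk
    refine ⟨a4, a3.trans (by nlinarith), a2.trans (by nlinarith),
      m 16 56 (by norm_num) (by norm_num) 0 (by norm_num),
      m 18 72 (by norm_num) (by norm_num) 1 (by norm_num),
      (mul_le_of_le_one_left (abs_nonneg _) s2).trans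
        (m 20 90 (by norm_num) (by norm_num) 2 (by norm_num)),
      (mul_le_of_le_one_left (abs_nonneg _) (pow_le_one₀ s3 s2)).trans
        (m 22 110 (by norm_num) (by norm_num) 3 (by norm_num))⟩

end Vale.Agent.P264
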