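import Vale.Agent.P264.A.Bd

/-! P264 A/Pde: the reduced equation in the variables `(t, ρ)`. -/

noncomputable section

open Set Filter Topology
open scoped ContDiff

namespace Vale.Agent.P264

/-- The moment coordinate. -/
def xF (F : ℝ × ℝ → ℝ) (q : ℝ × ℝ) : ℝ := q.2 * dr F q

/-- Its `ρ`-derivative. -/
def pF (F : ℝ × ℝ → ℝ) (q : ℝ × ℝ) : ℝ := dr F q + q.2 * dr (dr F) q

/-- `w` and its `x`-derivatives as functions of `(t, ρ)`. -/
def WF (F : ℝ × ℝ → ℝ) : ℕ → ℝ × ℝ → ℝ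
  | 0 => fun q => -dr (dr F) q * ((dr F q)⁻¹ * (dr F q)⁻¹)
  | k + 1 => fun q => dr (WF F k) q * (pF F q)⁻¹

variable {F : ℝ × ℝ → ℝ} {q : ℝ × ℝ}

theorem bd_x (hF : Bd F) : Bd (xF F) := bd_snd.mul hF.dr

theorem bd_p (hF : Bd F) : Bd (pF F) := hF.dr.add (bd_snd.mul hF.dr.dr)

theorem bd_W (hF : Bd F) (n1 : NZ (dr F)) (n2 : NZ (pF F)) : ∀ k, Bd (WF F k)
  | 0 => hF.dr.dr.neg.mul ((hF.dr.inv n1).mul (hF.dr.inv n1))
  | k + 1 => (bd_W hF n1 n2 k).dr.mul ((bd_p hF).inv n2)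

theorem hd_x (hF : Bd F) (hq : q ∈ Dm) : HasDerivAt (fun ρ => xF F (q.1, ρ)) (pF F q) q.2 :=
  ((hasDerivAt_id' q.2).fun_mul (sm_hd hF.dr.1 hq)).congr_deriv (by simp [pF])

theorem hd_p (hF : Bd F) (hq : q ∈ Dm) : HasDerivAt (fun ρ => pF F (q.1, ρ))
    (2 * dr (dr F) q + q.2 * dr (dr (dr F)) q) q.2 :=
  ((sm_hd hF.dr.1 hq).fun_add ((hasDerivAt_id' q.2).fun_mul (sm_hd hF.dr.dr.1 hq))).congr_deriv
    (by simp only [Prod.mk.eta]; ring)

theorem hd_W (hF : Bd F) (n1 : NZ (dr F)) (n2 : NZ (pF F)) (hq : q ∈ Dm) (k : ℕ) :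
    HasDerivAt (fun ρ => WF F k (q.1, ρ)) (WF F (k + 1) q * pF F q) q.2 :=
  (sm_hd (bd_W hF n1 n2 k).1 hq).congr_deriv (inv_mul_cancel_right₀ (n2.pos hq).ne' _).symm

theorem hd_S0 (hF : Bd F) (n1 : NZ (dr F)) (n2 : NZ (pF F)) (hq : q ∈ Dm) :
    HasDerivAt (fun ρ => S0 (fun k => WF F k (q.1, ρ)) (xF F (q.1, ρ)))
      (pF F q * S1 (fun k => WF F k q) (xF F q)) q.2 := by
  have hx := hd_x hF hq
  have hw := hd_W hF n1 n2 hq
  refine ((((hx.fun_pow 2).fun_mul (hw 2)).fun_add ((hx.const_mul 16).fun_mul (hw 1))).fun_add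
    ((hw 0).const_mul 56)).congr_deriv ?_
  simp only [S1, Prod.mk.eta]
  norm_num
  ring

theorem hd_S1 (hF : Bd F) (n1 : NZ (dr F)) (n2 : NZ (pF F)) (hq : q ∈ Dm) :
    HasDerivAt (fun ρ => S1 (fun k => WF F k (q.1, ρ)) (xF F (q.1, ρ)))
      (pF F q * S2 (fun k => WF F k q) (xF F q)) q.2 := by
  have hx := hd_x hF hq
  have hw := hd_W hF n1 n2 hq
  refine ((((hx.fun_pow 2).fun_mul (hw 3)).fun_add ((hx.const_mul 18).fun_mul (hw 2))).fun_add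
    ((hw 1).const_mul 72)).congr_deriv ?_
  simp only [S2, Prod.mk.eta]
  norm_num
  ring

theorem W1_eq (hF : Bd F) (n1 : NZ (dr F)) (hq : q ∈ Dm) : WF F 1 q = (-dr (dr (dr F)) q * dr F q +
    2 * dr (dr F) q ^ 2) * ((dr F q) ^ 3 * pF F q)⁻¹ := by
  have a0 := (n1.pos hq).ne'
  have h := (sm_hd hF.dr.1 hq).fun_inv a0
  have h2 := ((sm_hd hF.dr.dr.1 hq).fun_neg.fun_mul (h.fun_mul h)).deriv
  show dr (WF F 0) q * _ = _
  rw [show dr (WF F 0) q = _ from h2, mul_inv]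
  simp only [Prod.mk.eta]
  field_simp
  ring

theorem scR_eq (hF : Bd F) (n1 : NZ (dr F)) (n2 : NZ (pF F)) (hq : q ∈ Dm) :
    scR (fun ρ => F (q.1, ρ)) q.2 = S0 (fun k => WF F k q) (xF F q) := by
  set L : ℝ × ℝ → ℝ := fun q => Real.log (dr F q ^ 6 * pF F q) with hL
  have e1 : EqOn (dr L) (fun q => 6 * dr (dr F) q * (dr F q)⁻¹ +
      (2 * dr (dr F) q + q.2 * dr (dr (dr F)) q) * (pF F q)⁻¹) Dm := fun q hq => by
    have a0 := (n1.pos hq).ne'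
    have p0 := (n2.pos hq).ne'
    refine ((((sm_hd hF.dr.1 hq).fun_pow 6).fun_mul (hd_p hF hq)).log
      (mul_ne_zero (pow_ne_zero 6 a0) p0)).deriv.trans ?_
    simp only [Prod.mk.eta]
    norm_num
    field_simp
  have a0 := (n1.pos hq).ne'
  have p0 := (n2.pos hq).ne'
  have d0 := sm_hd hF.dr.1 hq
  have d1 := sm_hd hF.dr.dr.1 hq
  have d2 := sm_hd hF.dr.dr.dr.1 hq
  have dp := hd_p hF hq
  have e2 := (dr_congr e1 hq).trans (((d1.const_mul 6).fun_mul (d0.fun_inv a0)).fun_add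
    (((d1.const_mul 2).fun_add ((hasDerivAt_id' q.2).fun_mul d2)).fun_mul (dp.fun_inv p0))).deriv
  have e3 := (dr_congr (fun q hq => W1_eq hF n1 hq) hq).trans
    (((d2.fun_neg.fun_mul d0).fun_add ((d1.fun_pow 2).const_mul 2)).fun_mul
      (((d0.fun_pow 3).fun_mul dp).fun_inv (mul_ne_zero (pow_ne_zero 3 a0) p0))).deriv
  show -((dr L q + q.2 * dr (dr L) q) / pF F q + 6 * dr L q / dr F q) =
    xF F q ^ 2 * (dr (WF F 1) q * (pF F q)⁻¹) + 16 * xF F q * WF F 1 q + 56 * WF F 0 q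
  rw [e2, e3, e1 hq, W1_eq hF n1 hq]
  simp only [WF, xF, Prod.mk.eta]
  have e4 : dr (dr F) q * q.2 = pF F q - dr F q := by rw [pF]; ring
  generalize pF F q = P at *
  generalize dr (dr (dr (dr F))) q = a3
  generalize dr (dr (dr F)) q = a2
  generalize dr (dr F) q = a1 at *
  generalize dr F q = a at *
  obtain rfl : P = a + a1 * q.2 := by linarith
  norm_num
  field_simp
  ring

theorem pde_eq (hF : Bd F) (n1 : NZ (dr F)) (n2 : NZ (pF F)) {κ : ℝ}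
    (he : ∀ t ρ, 0 < t → 0 < ρ →
      HasDerivAt (fun τ => F (τ, ρ)) (scR (fun ρ => F (t, ρ)) ρ - κ) t)
    (h1 : 0 < q.1) (h2 : 0 < q.2) : dt (WF F 0) q - dt (xF F) q * WF F 1 q =
      -(1 - xF F q * WF F 0 q) ^ 2 * S2 (fun k => WF F k q) (xF F q) := by
  have hq : q ∈ Dm := mem_Dm h1.le h2
  have U : ∀ {q : ℝ × ℝ}, 0 < q.1 → 0 < q.2 → ∀ᶠ p in 𝓝 q, 0 < p.1 ∧ 0 < p.2 := fun h1 h2 =>
    prod_mem_nhds (Ioi_mem_nhds h1) (Ioi_mem_nhds h2)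
  have e1 : ∀ q : ℝ × ℝ, 0 < q.1 → 0 < q.2 →
      dt (dr F) q = pF F q * S1 (fun k => WF F k q) (xF F q) := fun q h1 h2 => by
    rw [dt_dr (sm_at hF.1 h1 h2), dr_ev_congr (f := dt F) (g := fun p => S0 (fun k => WF F k p) (xF F p) - κ)
      ((U h1 h2).mono fun p hp => (he p.1 p.2 hp.1 hp.2).deriv.trans
        (congrArg (· - κ) (scR_eq (q := p) hF n1 n2 (mem_Dm hp.1.le hp.2))))]
    exact ((hd_S0 hF n1 n2 (mem_Dm h1.le h2)).sub_const κ).deriv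
  have e2 := (dt_dr (sm_at hF.dr.1 h1 h2)).trans ((dr_ev_congr ((U h1 h2).mono fun p hp =>
    e1 p hp.1 hp.2)).trans ((hd_p hF hq).fun_mul (hd_S1 hF n1 n2 hq)).deriv)
  have a0 := (n1.pos hq).ne'
  have p0 := (n2.pos hq).ne'
  have d0 := hd_dt (sm_at hF.dr.1 h1 h2)
  have d1 := hd_dt (sm_at hF.dr.dr.1 h1 h2)
  have e3 : dt (WF F 0) q = _ := (d1.fun_neg.fun_mul ((d0.fun_inv a0).fun_mul (d0.fun_inv a0))).deriv
  have e4 : dt (xF F) q = _ := (d0.const_mul q.2).deriv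
  rw [e3, e4, e2, e1 q h1 h2, W1_eq hF n1 hq]
  simp only [Prod.mk.eta]
  generalize S1 (fun k => WF F k q) (xF F q) = s1
  generalize S2 (fun k => WF F k q) (xF F q) = s2
  simp only [WF, xF]
  have e5 : dr (dr F) q * q.2 = pF F q - dr F q := by rw [pF]; ring
  generalize pF F q = P at *
  generalize dr (dr (dr F)) q = a2
  generalize dr (dr F) q = a1 at *
  generalize dr F q = a at *
  obtain rfl : P = a + a1 * q.2 := by linarith
  field_simp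
  ring

end Vale.Agent.P264
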