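import Vale.Agent.P264.A.Pde
import Vale.Agent.P264.A.Inv

/-! P264 A/Red: the second chart, uniform bounds. -/

noncomputable section

open Set Filter Topology
open scoped ContDiff

namespace Vale.Agent.P264

variable {F G : ℝ × ℝ → ℝ} {q : ℝ × ℝ}

theorem red_mem (hq : q ∈ Dm) : (q.1, q.2⁻¹) ∈ Dm := mem_Dm hq.1 (inv_pos.2 hq.2)

theorem red_hd {f : ℝ × ℝ → ℝ} (hf : ContDiffOn ℝ ∞ f Dm) (hq : q ∈ Dm) :
    HasDerivAt (fun σ => f (q.1, σ⁻¹)) (dr f (q.1, q.2⁻¹) * -(q.2 ^ 2)⁻¹) q.2 :=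
  (sm_hd hf (red_mem hq)).comp q.2 (hasDerivAt_inv (ne_of_gt hq.2))

/-- `w` and its `x`-derivatives in the second chart. -/
def VG (G : ℝ × ℝ → ℝ) : ℕ → ℝ × ℝ → ℝ
  | 0 => fun q => (1 - xF G q - q.2 * pF G q) * ((1 - xF G q)⁻¹ * (1 - xF G q)⁻¹)
  | k + 1 => fun q => -(dr (VG G k) q * (pF G q)⁻¹)

/-- The data of the two charts. -/
structure Two (F G : ℝ × ℝ → ℝ) : Prop where
  hF : Bd F
  hG : Bd G
  e : ∀ p ∈ Dm, G p = Real.log p.2 + F (p.1, p.2⁻¹)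
  n1 : NZ (dr F)
  n2 : NZ (pF F)
  n3 : NZ (pF G)

namespace Two

theorem x_eq (h : Two F G) (hq : q ∈ Dm) : 1 - xF G q = xF F (q.1, q.2⁻¹) := by
  have q0 : q.2 ≠ 0 := ne_of_gt hq.2
  have h1 := (dr_congr h.e hq).trans
    ((Real.hasDerivAt_log q0).fun_add (red_hd h.hF.1 hq)).deriv
  simp only [xF, h1]
  field_simp
  ring

theorem p_eq (h : Two F G) (hq : q ∈ Dm) : pF G q = pF F (q.1, q.2⁻¹) * (q.2 ^ 2)⁻¹ := by
  have h1 := (dr_congr (fun q hq => h.x_eq hq) hq).trans (red_hd (bd_x h.hF).1 hq).deriv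
  rw [show dr (fun q => 1 - xF G q) q = _ from ((hd_x h.hG hq).const_sub 1).deriv,
    show dr (xF F) _ = _ from (hd_x h.hF (red_mem hq)).deriv] at h1
  linarith

theorem xG_pos (h : Two F G) (hq : q ∈ Dm) : 0 < xF G q := by
  have mono : StrictMonoOn (fun σ => xF G (q.1, σ)) (Ioi 0) :=
    strictMonoOn_of_deriv_pos (convex_Ioi 0)
      (fun σ hσ => (hd_x h.hG (mem_Dm hq.1 hσ)).continuousAt.continuousWithinAt) fun σ hσ => by
        rw [interior_Ioi] at hσ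
        exact (h.n3.pos (mem_Dm hq.1 hσ)).trans_eq (hd_x h.hG (mem_Dm hq.1 hσ)).deriv.symm
  have q0 : 0 < q.2 := hq.2
  refine lt_of_le_of_lt (le_of_tendsto (h.hG.dr.ext.mul_lim hq.1) ?_)
    (mono (half_pos q0) q0 (half_lt_self q0))
  filter_upwards [Ioo_mem_nhdsGT (half_pos q0)] with σ hσ
  exact (mono hσ.1 (half_pos q0) hσ.2).le

theorem xF_pos (h : Two F G) (hq : q ∈ Dm) : 0 < xF F q := mul_pos hq.2 (h.n1.pos hq)

theorem xF_lt (h : Two F G) (hq : q ∈ Dm) : 0 < 1 - xF F q := by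
  have h1 := h.x_eq (red_mem hq)
  have h2 := h.xG_pos (red_mem hq)
  simp only [inv_inv] at h1
  linarith

theorem nz1 (h : Two F G) : NZ fun q => 1 - xF F q :=
  nz_of ((bd_const 1).sub (bd_x h.hF)).ext (fun _ hq => h.xF_lt hq) fun t ht =>
    ⟨1, one_pos, by simpa [xF] using (h.hF.dr.ext.mul_lim ht).const_sub 1⟩

theorem nz2 (h : Two F G) : NZ fun q => 1 - xF G q :=
  nz_of ((bd_const 1).sub (bd_x h.hG)).ext
    (fun _ hq => (h.xF_pos (red_mem hq)).trans_eq (h.x_eq hq).symm) fun t ht =>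
    ⟨1, one_pos, by simpa [xF] using (h.hG.dr.ext.mul_lim ht).const_sub 1⟩

theorem nz3 (h : Two F G) : NZ (dr G) :=
  nz_of h.hG.dr.ext (fun _ hq => pos_of_mul_pos_right (h.xG_pos hq) (le_of_lt hq.2)) fun t ht => by
    obtain ⟨l, l0, hl⟩ := h.n3.lim ht
    exact ⟨l, l0, by simpa [pF] using hl.sub (h.hG.dr.dr.ext.mul_lim ht)⟩

theorem lim1 (h : Two F G) {t : ℝ} (ht : 0 ≤ t) : Tendsto (fun ρ => xF F (t, ρ)) atTop (𝓝 1) := by
  have h1 := ((h.hG.dr.ext.mul_lim ht).const_sub 1).comp tendsto_inv_atTop_nhdsGT_zero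
  rw [sub_zero] at h1
  refine h1.congr' ((eventually_gt_atTop 0).mono fun ρ hρ => ?_)
  exact (h.x_eq (mem_Dm ht (inv_pos.2 hρ))).trans (by simp only [inv_inv])

theorem bdV (h : Two F G) : ∀ k, Bd (VG G k)
  | 0 => (((bd_const 1).sub (bd_x h.hG)).sub (bd_snd.mul (bd_p h.hG))).mul
      ((((bd_const 1).sub (bd_x h.hG)).inv h.nz2).mul (((bd_const 1).sub (bd_x h.hG)).inv h.nz2))
  | k + 1 => ((bdV h k).dr.mul ((bd_p h.hG).inv h.n3)).neg

theorem V_eq (h : Two F G) : ∀ k, ∀ q ∈ Dm, VG G k q = WF F k (q.1, q.2⁻¹)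
  | 0 => fun q hq => by
    have q0 : q.2 ≠ 0 := ne_of_gt hq.2
    have a0 := (h.n1.pos (red_mem hq)).ne'
    simp only [VG, WF, h.x_eq hq, h.p_eq hq]
    simp only [xF, pF]
    field_simp
    ring
  | k + 1 => fun q hq => by
    have q0 : q.2 ≠ 0 := ne_of_gt hq.2
    have a0 := (h.n2.pos (red_mem hq)).ne'
    have h1 := (dr_congr (V_eq h k) hq).trans (red_hd (bd_W h.hF h.n1 h.n2 k).1 hq).deriv
    simp only [VG, WF, h1, h.p_eq hq]
    field_simp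

theorem V_one (h : Two F G) (hq : q ∈ Dm) : VG G 1 q = q.2 * ((dr (pF G) q * (1 - xF G q) +
    2 * (pF G q * pF G q)) * ((1 - xF G q)⁻¹ * (1 - xF G q)⁻¹ * (1 - xF G q)⁻¹ * (pF G q)⁻¹)) := by
  have x0 := (h.nz2.pos hq).ne'
  have p0 := (h.n3.pos hq).ne'
  have d1 := (hd_x h.hG hq).const_sub 1
  have h1 : dr (VG G 0) q = _ := ((d1.fun_sub ((hasDerivAt_id' q.2).fun_mul
    (sm_hd (bd_p h.hG).1 hq))).fun_mul ((d1.fun_inv x0).fun_mul (d1.fun_inv x0))).deriv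
  simp only [VG] at h1 ⊢
  rw [h1]
  simp only [Prod.mk.eta]
  field_simp
  ring

theorem y_eq (h : Two F G) (hq : q ∈ Dm) : 1 - xF F q * WF F 0 q = pF F q * (dr F q)⁻¹ := by
  have a0 := (h.n1.pos hq).ne'
  simp only [xF, WF, pF]
  field_simp
  ring

theorem bound (h : Two F G) (T : ℝ) : ∃ C, 0 < C ∧ ∀ t ∈ Icc 0 T, ∀ ρ, 0 < ρ →
    (∀ k ≤ 5, |WF F k (t, ρ)| ≤ C) ∧ |WF F 1 (t, ρ)| ≤ C * (1 - xF F (t, ρ)) ∧
      1 - xF F (t, ρ) * WF F 0 (t, ρ) ≤ C * (1 - xF F (t, ρ)) ∧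
      C⁻¹ * (1 - xF F (t, ρ)) ≤ 1 - xF F (t, ρ) * WF F 0 (t, ρ) := by
  have bW := bd_W h.hF h.n1 h.n2
  have b1 := (bd_const 1).sub (bd_x h.hF)
  have b2 := (bd_const 1).sub (bd_x h.hG)
  have i1 := b1.inv h.nz1
  have i2 := b2.inv h.nz2
  have i3 := h.hG.dr.inv h.nz3
  have pG := bd_p h.hG
  have i4 := pG.inv h.n3
  have ex : ∀ q ∈ Dm, 1 - xF F (q.1, q.2⁻¹) = q.2 * dr G q := fun q hq => by
    rw [← h.x_eq hq, sub_sub_cancel, xF]
  have ea : ∀ q ∈ Dm, dr F (q.1, q.2⁻¹) = q.2 * (1 - xF G q) := fun q hq => by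
    rw [h.x_eq hq, xF, mul_inv_cancel_left₀ (ne_of_gt hq.2)]
  have ep : ∀ q ∈ Dm, pF F (q.1, q.2⁻¹) = pF G q * q.2 ^ 2 := fun q hq => by
    rw [h.p_eq hq, inv_mul_cancel_right₀ (pow_ne_zero 2 (ne_of_gt hq.2))]
  choose C C0 hC using fun k => two_side (bW k).ext (h.bdV k).ext (h.V_eq k) T
  obtain ⟨A, A0, hA⟩ := two_side ((bW 1).mul i1).ext ((((pG.dr.mul b2).add ((bd_const 2).mul
    (pG.mul pG))).mul (((i2.mul i2).mul i2).mul i4)).mul i3).ext (fun q hq => by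
      have q0 : q.2 ≠ 0 := ne_of_gt hq.2
      rw [← h.V_eq 1 q hq, h.V_one hq, ex q hq]
      field_simp) T
  obtain ⟨B, B0, hB⟩ := two_side (((bd_p h.hF).mul (h.hF.dr.inv h.n1)).mul i1).ext
    ((pG.mul i2).mul i3).ext (fun q hq => by
      have q0 : q.2 ≠ 0 := ne_of_gt hq.2
      rw [ex q hq, ea q hq, ep q hq]
      field_simp) T
  obtain ⟨D, D0, hD⟩ := two_side ((((bd_p h.hF).inv h.n2).mul h.hF.dr).mul b1).ext
    ((i4.mul b2).mul h.hG.dr).ext (fun q hq => by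
      have q0 : q.2 ≠ 0 := ne_of_gt hq.2
      rw [ex q hq, ea q hq, ep q hq]
      field_simp) T
  have s0 : 0 ≤ ∑ k ∈ Finset.range 6, C k := Finset.sum_nonneg fun k _ => (C0 k).le
  refine ⟨∑ k ∈ Finset.range 6, C k + A + B + D, by positivity, fun t ht ρ hρ => ?_⟩
  have hq := mem_Dm ht.1 hρ
  have x1 := h.xF_lt hq
  have a0 := h.n1.pos hq
  have p0 := h.n2.pos hq
  have h1 := hA t ht ρ hρ
  have h2 := (le_abs_self _).trans (hB t ht ρ hρ)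
  have h3 := (le_abs_self _).trans (hD t ht ρ hρ)
  rw [abs_mul, abs_of_pos (inv_pos.2 x1), mul_inv_le_iff₀ x1] at h1
  rw [mul_inv_le_iff₀ x1] at h2
  rw [h.y_eq hq]
  refine ⟨fun k hk => (hC k t ht ρ hρ).trans ?_, h1.trans (by gcongr; linarith),
    h2.trans (by gcongr; linarith), ?_⟩
  · have := Finset.single_le_sum (f := C) (fun k _ => (C0 k).le)
      (Finset.mem_range.2 (Nat.lt_succ_of_le hk))
    linarith
  · rw [inv_mul_le_iff₀ (by positivity)]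
    have h4 := mul_le_mul_of_nonneg_right (h3.trans (show D ≤ ∑ k ∈ Finset.range 6, C k + A + B + D by
      linarith)) (mul_pos p0 (inv_pos.2 a0)).le
    refine le_trans (le_of_eq ?_) h4
    field_simp

end Two

end Vale.Agent.P264
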